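import Vale.Agent.P267.H995.Part

/-!
# P267, UNI-LB (1): from integral cocycles to line bundles

`S : SqPart X ι` is a partition of unity by squares `ψ_a = φ_a²`; for an integral 2-cocycle `z` of
the nerve, `S.lb z hz` is the line bundle with projector `(φ_a g_ab φ_b)`,
`g_ab = exp (2πi ∑_c z_abc ψ_c)`; its curvature is `-2πi W(z)` (`curv_lb`).
-/

set_option linter.unusedSectionVars false

open scoped Manifold ContDiff ComplexConjugate Matrix
open Set Filter Topology

noncomputable section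

namespace Vale.Agent.P267.H995

open Vale.Agent.P267.FL

variable {X : Type*} [TopologicalSpace X] [ChartedSpace C2 X]
variable {ι : Type} [Fintype ι] [DecidableEq ι]

/-- A finite smooth partition of unity by squares `φ_a²`, with `supp φ_a ⊆ U_a`. -/
structure SqPart (X : Type*) [TopologicalSpace X] [ChartedSpace C2 X] (ι : Type*) [Fintype ι] where
  U : ι → Set X
  isOpen : ∀ a, IsOpen (U a)
  φ : ι → X → ℝ
  smooth : ∀ a, Reg0 ∞ 0 (fun x => (φ a x : ℂ))
  supp : ∀ a, tsupport (φ a) ⊆ U a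
  sum : ∀ x, ∑ a, φ a x ^ 2 = 1

namespace SqPart

variable (S : SqPart X ι)

/-- the partition of unity `φ_a²` -/
def toPart : Part X ι where
  U := S.U
  isOpen := S.isOpen
  ρ a x := S.φ a x ^ 2
  smooth a := by
    have h := LB.reg0_zero_mul (S.smooth a) (S.smooth a)
    have h2 : (fun x => ((S.φ a x ^ 2 : ℝ) : ℂ)) = fun x => (S.φ a x : ℂ) * (S.φ a x : ℂ) := by
      funext x
      push_cast
      ring
    rw [h2]
    exact h
  supp a := by
    refine subset_trans (closure_mono ?_) (S.supp a)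
    intro x hx
    simp only [Function.mem_support] at hx ⊢
    intro h
    exact hx (by rw [h]; simp)
  sum := S.sum

theorem ψ_eq (a : ι) (x : X) : S.toPart.ψ a x = (S.φ a x : ℂ) * (S.φ a x : ℂ) := by
  change ((S.φ a x ^ 2 : ℝ) : ℂ) = _
  push_cast
  ring

theorem mem_of_ne {a : ι} {x : X} (h : S.φ a x ≠ 0) : x ∈ S.U a :=
  S.supp a (subset_tsupport _ h)

theorem dat_φ (a : ι) (x : X) : DAt (fun y => (S.φ a y : ℂ)) x := DAt_of_reg (S.smooth a) x

theorem DT_ψ (T : (C2 →L[ℝ] ℂ) →ₗ[ℂ] ℂ) (a : ι) (x : X) :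
    DT T x (S.toPart.ψ a) = 2 * (S.φ a x : ℂ) * DT T x (fun y => (S.φ a y : ℂ)) := by
  have : S.toPart.ψ a = fun y => (S.φ a y : ℂ) * (S.φ a y : ℂ) := funext fun y => S.ψ_eq a y
  rw [this, DT_mul T (S.dat_φ a x) (S.dat_φ a x)]
  ring

/-- `h_ab = ∑_c z_abc ψ_c` -/
def h (z : ι → ι → ι → ℤ) (a b : ι) (x : X) : ℂ := ∑ c, (z a b c : ℂ) * S.toPart.ψ c x

/-- the transition functions `g_ab = exp (2πi h_ab)` -/
def g (z : ι → ι → ι → ℤ) (a b : ι) (x : X) : ℂ :=
  Complex.exp (2 * Real.pi * Complex.I * S.h z a b x)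

theorem dat_h (z : ι → ι → ι → ℤ) (a b : ι) (x : X) : DAt (S.h z a b) x :=
  DAt.sum fun c _ => (DAt.const _).mul (S.toPart.dat_ψ c x)

theorem DT_h (T : (C2 →L[ℝ] ℂ) →ₗ[ℂ] ℂ) (z : ι → ι → ι → ℤ) (a b : ι) (x : X) :
    DT T x (S.h z a b) = ∑ c, (z a b c : ℂ) * DT T x (S.toPart.ψ c) := by
  have : S.h z a b = fun y => ∑ c, (z a b c : ℂ) * S.toPart.ψ c y := rfl
  rw [this, DT_sum T (fun c _ => (DAt.const _).mul (S.toPart.dat_ψ c x))]
  exact Finset.sum_congr rfl fun c _ => DT_const_mul T _ (S.toPart.dat_ψ c x)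

theorem dat_g (z : ι → ι → ι → ℤ) (a b : ι) (x : X) : DAt (S.g z a b) x :=
  DAt.comp (F := fun w => Complex.exp (2 * Real.pi * Complex.I * w)) (S.dat_h z a b x)
    (by fun_prop)

theorem DT_g (T : (C2 →L[ℝ] ℂ) →ₗ[ℂ] ℂ) (z : ι → ι → ι → ℤ) (a b : ι) (x : X) :
    DT T x (S.g z a b) = S.g z a b x * (2 * Real.pi * Complex.I * DT T x (S.h z a b)) := by
  have h1 : HasDerivAt (fun w : ℂ => Complex.exp (2 * Real.pi * Complex.I * w))
      (Complex.exp (2 * Real.pi * Complex.I * S.h z a b x) * (2 * Real.pi * Complex.I * 1))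
      (S.h z a b x) :=
    ((hasDerivAt_id (S.h z a b x)).const_mul (2 * Real.pi * Complex.I : ℂ)).cexp
  have h2 := DT_comp T (S.dat_h z a b x) h1
  have h3 : S.g z a b = fun y =>
      (fun w : ℂ => Complex.exp (2 * Real.pi * Complex.I * w)) (S.h z a b y) := rfl
  rw [h3, h2]
  ring

variable {S} {z : ι → ι → ι → ℤ}

/-- the cocycle relation for `h`, up to an integer -/
theorem h_coc (hz : IsCoc S.U z) {a b c : ι} {x : X} (ha : x ∈ S.U a) (hb : x ∈ S.U b)
    (hc : x ∈ S.U c) : S.h z a b x + S.h z b c x - S.h z a c x = z a b c := by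
  have h1 : ∀ d, ((z a b d : ℂ) + z b c d - z a c d) * S.toPart.ψ d x =
      (z a b c : ℂ) * S.toPart.ψ d x := by
    intro d
    by_cases hd : S.φ d x = 0
    · simp [ψ_eq, hd]
    · have := hz a b c d x ha hb hc (S.mem_of_ne hd)
      have h2 : z a b d + z b c d - z a c d = z a b c := by linarith
      have h3 : (z a b d : ℂ) + z b c d - z a c d = z a b c := by exact_mod_cast h2
      rw [h3]
  calc S.h z a b x + S.h z b c x - S.h z a c x
      = ∑ d, ((z a b d : ℂ) + z b c d - z a c d) * S.toPart.ψ d x := by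
        simp only [h]
        rw [← Finset.sum_add_distrib, ← Finset.sum_sub_distrib]
        exact Finset.sum_congr rfl fun d _ => by ring
    _ = ∑ d, (z a b c : ℂ) * S.toPart.ψ d x := Finset.sum_congr rfl fun d _ => h1 d
    _ = z a b c := by rw [← Finset.mul_sum, S.toPart.sum_ψ, mul_one]

theorem g_coc (hz : IsCoc S.U z) {a b c : ι} {x : X} (ha : x ∈ S.U a) (hb : x ∈ S.U b)
    (hc : x ∈ S.U c) : S.g z a b x * S.g z b c x = S.g z a c x := by
  have h1 := h_coc hz ha hb hc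
  have h2 : S.h z a b x + S.h z b c x = S.h z a c x + z a b c := by linear_combination h1
  rw [g, g, g, ← Complex.exp_add, ← mul_add, h2, mul_add, Complex.exp_add]
  have : Complex.exp (2 * Real.pi * Complex.I * (z a b c : ℂ)) = 1 := by
    rw [mul_comm]
    exact Complex.exp_int_mul_two_pi_mul_I _
  rw [this, mul_one]

theorem g_self (hz : IsCoc S.U z) {a : ι} {x : X} (ha : x ∈ S.U a) : S.g z a a x = 1 := by
  have h1 := g_coc hz ha ha ha
  have h2 : S.g z a a x ≠ 0 := Complex.exp_ne_zero _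
  exact mul_left_cancel₀ h2 (by rw [h1, mul_one])

theorem g_inv (hz : IsCoc S.U z) {a b : ι} {x : X} (ha : x ∈ S.U a) (hb : x ∈ S.U b) :
    S.g z a b x * S.g z b a x = 1 := by
  rw [g_coc hz ha hb ha, g_self hz ha]

theorem conj_h (a b : ι) (x : X) : conj (S.h z a b x) = S.h z a b x := by
  simp [h, ψ_eq, map_sum]

theorem conj_g_mul (a b : ι) (x : X) : conj (S.g z a b x) * S.g z a b x = 1 := by
  rw [g, ← Complex.exp_conj, ← Complex.exp_add, map_mul, conj_h, map_mul, map_mul,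
    Complex.conj_I, Complex.conj_ofReal, show conj (2 : ℂ) = 2 from Complex.conj_ofNat 2]
  rw [← Complex.exp_zero]
  congr 1
  ring

theorem conj_g (hz : IsCoc S.U z) {a b : ι} {x : X} (ha : x ∈ S.U a) (hb : x ∈ S.U b) :
    conj (S.g z a b x) = S.g z b a x := by
  have h1 := conj_g_mul (S := S) (z := z) a b x
  have h2 := g_inv hz hb ha
  have h3 : S.g z a b x ≠ 0 := Complex.exp_ne_zero _
  exact mul_right_cancel₀ h3 (h1.trans h2.symm)

variable (S z)

/-- the projector `P = (φ_a g_ab φ_b)` -/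
def P (x : X) : Matrix ι ι ℂ :=
  Matrix.of fun a b => (S.φ a x : ℂ) * S.g z a b x * (S.φ b x : ℂ)

variable {S z}

theorem P_apply (a b : ι) (x : X) :
    S.P z x a b = (S.φ a x : ℂ) * S.g z a b x * (S.φ b x : ℂ) := rfl

theorem P_herm (hz : IsCoc S.U z) (x : X) : (S.P z x)ᴴ = S.P z x := by
  ext a b
  rw [Matrix.conjTranspose_apply, P_apply, P_apply, star_mul', star_mul']
  by_cases ha : S.φ a x = 0
  · simp [ha]
  by_cases hb : S.φ b x = 0
  · simp [hb]
  have h1 : star (S.g z b a x) = S.g z a b x := conj_g hz (S.mem_of_ne hb) (S.mem_of_ne ha)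
  rw [h1]
  simp only [Complex.star_def, Complex.conj_ofReal]
  ring

theorem P_idem (hz : IsCoc S.U z) (x : X) : S.P z x * S.P z x = S.P z x := by
  ext a c
  rw [Matrix.mul_apply]
  have h1 : ∀ b, S.P z x a b * S.P z x b c = S.P z x a c * S.toPart.ψ b x := by
    intro b
    simp only [P_apply, ψ_eq]
    by_cases ha : S.φ a x = 0
    · simp [ha]
    by_cases hb : S.φ b x = 0
    · simp [hb]
    by_cases hc : S.φ c x = 0
    · simp [hc]
    rw [← g_coc hz (S.mem_of_ne ha) (S.mem_of_ne hb) (S.mem_of_ne hc)]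
    ring
  simp_rw [h1]
  rw [← Finset.mul_sum, S.toPart.sum_ψ, mul_one]

theorem P_tr (hz : IsCoc S.U z) (x : X) : (S.P z x).trace = 1 := by
  rw [← S.toPart.sum_ψ x]
  simp only [Matrix.trace, Matrix.diag_apply, P_apply, ψ_eq]
  refine Finset.sum_congr rfl fun a _ => ?_
  by_cases ha : S.φ a x = 0
  · simp [ha]
  · rw [g_self hz (S.mem_of_ne ha), mul_one]

section smooth

theorem reg_const (c : ℂ) : Reg0 ∞ 0 (fun _ : X => c) := by
  intro e _
  rw [LB.loc0_zero]
  exact contDiffOn_const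

theorem reg_sum {κ : Type*} {s : Finset κ} {f : κ → X → ℂ} (hf : ∀ i ∈ s, Reg0 ∞ 0 (f i)) :
    Reg0 ∞ 0 (fun x => ∑ i ∈ s, f i x) := by
  intro e he
  rw [LB.loc0_zero]
  have : ((fun x => ∑ i ∈ s, f i x) ∘ e.symm) = fun z => ∑ i ∈ s, f i (e.symm z) := rfl
  rw [this]
  refine ContDiffOn.sum fun i hi => ?_
  have := hf i hi e he
  rwa [LB.loc0_zero] at this

theorem reg_comp {f : X → ℂ} {F : ℂ → ℂ} (hf : Reg0 ∞ 0 f) (hF : ContDiff ℝ ∞ F) :
    Reg0 ∞ 0 (fun x => F (f x)) := by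
  intro e he
  have := hf e he
  rw [LB.loc0_zero] at this ⊢
  exact hF.comp_contDiffOn this

theorem reg_h (a b : ι) : Reg0 ∞ 0 (S.h z a b) :=
  reg_sum fun c _ => LB.reg0_zero_mul (reg_const _) (S.toPart.smooth c)

theorem reg_g (a b : ι) : Reg0 ∞ 0 (S.g z a b) := by
  have hF : ContDiff ℝ ∞ (fun w : ℂ => Complex.exp (2 * Real.pi * Complex.I * w)) :=
    Complex.contDiff_exp.comp (contDiff_const.mul contDiff_id)
  exact reg_comp (F := fun w : ℂ => Complex.exp (2 * Real.pi * Complex.I * w)) (reg_h a b) hF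

end smooth

variable (S)

/-- the line bundle attached to an integral 2-cocycle -/
def lb (z : ι → ι → ι → ℤ) (hz : IsCoc S.U z) : LB X ι where
  P := S.P z
  smooth a b := LB.reg0_zero_mul (LB.reg0_zero_mul (S.smooth a) (reg_g a b)) (S.smooth b)
  herm x := P_herm hz x
  idem x := P_idem hz x
  tr x := P_tr hz x

variable {S}

/-- **Curvature of the line bundle of a cocycle**, in terms of one index `c` with `x ∈ U_c`. -/
theorem curP_P (hz : IsCoc S.U z) {x : X} {c : ι} (hc : x ∈ S.U c)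
    (T T' : (C2 →L[ℝ] ℂ) →ₗ[ℂ] ℂ) :
    curP (S.P z) x T T' = 2 * Real.pi * Complex.I * ∑ b, ∑ d, (z b c d : ℂ) *
      S.toPart.wd b d x T T' := by
  have hcn : ∀ᶠ y in 𝓝 x, y ∈ S.U c := (S.isOpen c).mem_nhds hc
  have hu : ∀ a, DAt (fun y => (S.φ a y : ℂ) * S.g z a c y) x := fun a =>
    (S.dat_φ a x).mul (S.dat_g z a c x)
  have hv : ∀ a, DAt (fun y => (S.φ a y : ℂ) * S.g z c a y) x := fun a =>
    (S.dat_φ a x).mul (S.dat_g z c a x)
  have hP : ∀ a b, (fun y => S.P z y a b) =ᶠ[𝓝 x]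
      fun y => ((S.φ a y : ℂ) * S.g z a c y) * ((S.φ b y : ℂ) * S.g z c b y) := by
    intro a b
    filter_upwards [hcn] with y hy
    rw [P_apply]
    by_cases ha : S.φ a y = 0
    · simp [ha]
    by_cases hb : S.φ b y = 0
    · simp [hb]
    rw [← g_coc hz (S.mem_of_ne ha) hy (S.mem_of_ne hb)]
    ring
  have h1 : (fun y => ∑ a, ((S.φ a y : ℂ) * S.g z c a y) * ((S.φ a y : ℂ) * S.g z a c y))
      =ᶠ[𝓝 x] fun _ => 1 := by
    filter_upwards [hcn] with y hy
    rw [← S.toPart.sum_ψ y]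
    refine Finset.sum_congr rfl fun a _ => ?_
    by_cases ha : S.φ a y = 0
    · simp [ha, ψ_eq]
    · have := g_inv hz hy (S.mem_of_ne ha)
      rw [ψ_eq]
      linear_combination (S.φ a y : ℂ) * (S.φ a y : ℂ) * this
  rw [curP_frame hu hv hP h1 T T', Finset.mul_sum]
  refine Finset.sum_congr rfl fun b _ => ?_
  have hR : ∑ d, (z b c d : ℂ) * S.toPart.wd b d x T T' =
      DT T x (S.toPart.ψ b) * DT T' x (S.h z b c) -
        DT T' x (S.toPart.ψ b) * DT T x (S.h z b c) := by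
    rw [DT_h, DT_h, Finset.mul_sum, Finset.mul_sum, ← Finset.sum_sub_distrib]
    exact Finset.sum_congr rfl fun d _ => by rw [Part.wd]; ring
  rw [hR]
  by_cases hb : x ∈ tsupport (S.φ b)
  · have hbU : x ∈ S.U b := S.supp b hb
    have hbn : ∀ᶠ y in 𝓝 x, y ∈ S.U b := (S.isOpen b).mem_nhds hbU
    -- `h_cb = const - h_bc` near `x`
    have hsum : ∀ R : (C2 →L[ℝ] ℂ) →ₗ[ℂ] ℂ, DT R x (S.h z c b) = - DT R x (S.h z b c) := by
      intro R
      have e1 : (fun y => S.h z b c y + S.h z c b y) =ᶠ[𝓝 x]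
          fun _ => (z b c b : ℂ) + z b b b := by
        filter_upwards [hcn, hbn] with y hy hy'
        have e2 := h_coc hz hy' hy hy'
        have e3 := h_coc hz hy' hy' hy'
        linear_combination e2 + e3
      have e4 : DT R x (fun y => S.h z b c y + S.h z c b y) = 0 := by
        rw [DT_congr R e1, DT_const]
      rw [DT_add R (S.dat_h z b c x) (S.dat_h z c b x)] at e4
      linear_combination e4
    have hg := g_inv hz hbU hc
    rw [DT_mul T (S.dat_φ b x) (S.dat_g z c b x), DT_mul T' (S.dat_φ b x) (S.dat_g z b c x),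
      DT_mul T' (S.dat_φ b x) (S.dat_g z c b x), DT_mul T (S.dat_φ b x) (S.dat_g z b c x),
      DT_g, DT_g, DT_g, DT_g, hsum T, hsum T', S.DT_ψ, S.DT_ψ]
    linear_combination (4 * Real.pi * Complex.I * (S.φ b x : ℂ) *
      (DT T x (fun y => (S.φ b y : ℂ)) * DT T' x (S.h z b c) -
        DT T' x (fun y => (S.φ b y : ℂ)) * DT T x (S.h z b c))) * hg
  · -- everything vanishes near `x`
    have h0 : (fun y => (S.φ b y : ℂ)) =ᶠ[𝓝 x] fun _ => 0 := by
      have : S.φ b =ᶠ[𝓝 x] 0 := notMem_tsupport_iff_eventuallyEq.1 hb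
      filter_upwards [this] with y hy
      simp [hy]
    have h00 : (S.φ b x : ℂ) = 0 := h0.eq_of_nhds
    have hD : ∀ R : (C2 →L[ℝ] ℂ) →ₗ[ℂ] ℂ, DT R x (fun y => (S.φ b y : ℂ)) = 0 := by
      intro R
      rw [DT_congr R h0, DT_const]
    rw [DT_mul T (S.dat_φ b x) (S.dat_g z c b x), DT_mul T' (S.dat_φ b x) (S.dat_g z b c x),
      DT_mul T' (S.dat_φ b x) (S.dat_g z c b x), DT_mul T (S.dat_φ b x) (S.dat_g z b c x),
      S.DT_ψ, S.DT_ψ, hD T, hD T', h00]
    ring

theorem isCoc_cast {U : ι → Set X} {z : ι → ι → ι → ℤ} (hz : IsCoc U z) :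
    IsCoc U (fun a b c => (z a b c : ℂ)) := by
  intro a b c d x ha hb hc hd
  have := hz a b c d x ha hb hc hd
  simp only
  exact_mod_cast this

/-- **The curvature of the line bundle of the cocycle `z` is `-2πi W(z)`**: its first Chern form
`(i/2π) F` is `W(z)`. -/
theorem curv_lb (hz : IsCoc S.U z) :
    (S.lb z hz).curv = -(2 * Real.pi * Complex.I : ℂ) • S.toPart.W fun a b c => (z a b c : ℂ) := by
  refine twoF_ext fun x q q' => ?_
  rw [pr_curv, pr_smul, Part.pr_W]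
  obtain ⟨c, hc⟩ := S.toPart.exists_mem x
  have h1 : curP (S.lb z hz).P x (tq q) (tq q') = _ := curP_P hz (c := c) hc (tq q) (tq q')
  have h2 := Part.Wp_eq' (S := S.toPart) (isCoc_cast hz) (a := c) hc (tq q) (tq q')
  rw [h1, h2]
  ring

end SqPart

end Vale.Agent.P267.H995
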