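import Vale.Agent.P267.H995.Zig

/-!
# P267, UNI-LB (2): from line bundles to integral cocycles

`DFrames P U`: local frames of a family `P` of rank one projectors on the sets `U_a`;
`LogData Fr`: logarithms of the transition functions; `LogData.zig : Zig U L.curv` with
`r = 2πi n`, `n` an integral cocycle.
-/

set_option linter.unusedSectionVars false

open scoped Manifold ContDiff ComplexConjugate Matrix
open Set Filter Topology

noncomputable section

namespace Vale.Agent.P267.H995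

open Vale.Agent.P267.FL

variable {X : Type*} [TopologicalSpace X] [ChartedSpace C2 X]
variable {ι : Type*} {κ : Type*} [Fintype κ] [DecidableEq κ]

/-- Local frames `u_a` and dual frames `v_a` of a family of rank one projectors `P` on the sets
`U_a`: `P = u_a v_aᵀ`, `v_a · u_a = 1`. -/
structure DFrames (P : X → Matrix κ κ ℂ) (U : ι → Set X) where
  u : ι → κ → X → ℂ
  v : ι → κ → X → ℂ
  smu : ∀ a k x, x ∈ U a → SmAt (u a k) x
  smv : ∀ a k x, x ∈ U a → SmAt (v a k) x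
  eq : ∀ a x, x ∈ U a → ∀ i j, P x i j = u a i x * v a j x
  one : ∀ a x, x ∈ U a → ∑ k, v a k x * u a k x = 1

namespace DFrames

variable {P : X → Matrix κ κ ℂ} {U : ι → Set X} (Fr : DFrames P U)

/-- transition function `λ_ab = v_a · u_b` -/
def lam (a b : ι) (x : X) : ℂ := ∑ k, Fr.v a k x * Fr.u b k x

variable {Fr}

theorem u_eq {a b : ι} {x : X} (ha : x ∈ U a) (hb : x ∈ U b) (k : κ) :
    Fr.u b k x = Fr.lam a b x * Fr.u a k x := by
  have h1 : ∑ j, P x k j * Fr.u b j x = Fr.u b k x := by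
    simp only [Fr.eq b x hb]
    have : ∀ j, Fr.u b k x * Fr.v b j x * Fr.u b j x = Fr.u b k x * (Fr.v b j x * Fr.u b j x) :=
      fun j => by ring
    simp only [this]
    rw [← Finset.mul_sum, Fr.one b x hb, mul_one]
  rw [← h1]
  simp only [Fr.eq a x ha, lam, Finset.sum_mul]
  exact Finset.sum_congr rfl fun j _ => by ring

theorem v_eq {a b : ι} {x : X} (ha : x ∈ U a) (hb : x ∈ U b) (k : κ) :
    Fr.v b k x = Fr.lam b a x * Fr.v a k x := by
  have h1 : ∑ j, Fr.v b j x * P x j k = Fr.v b k x := by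
    simp only [Fr.eq b x hb]
    have : ∀ j, Fr.v b j x * (Fr.u b j x * Fr.v b k x) = Fr.v b k x * (Fr.v b j x * Fr.u b j x) :=
      fun j => by ring
    simp only [this]
    rw [← Finset.mul_sum, Fr.one b x hb, mul_one]
  rw [← h1]
  simp only [Fr.eq a x ha, lam, Finset.sum_mul]
  exact Finset.sum_congr rfl fun j _ => by ring

theorem lam_coc {a b c : ι} {x : X} (ha : x ∈ U a) (hb : x ∈ U b) :
    Fr.lam a b x * Fr.lam b c x = Fr.lam a c x := by
  conv_rhs => rw [lam]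
  simp only [v_eq (Fr := Fr) hb ha, mul_assoc]
  rw [← Finset.mul_sum]
  rfl

theorem lam_self {a : ι} {x : X} (ha : x ∈ U a) : Fr.lam a a x = 1 := Fr.one a x ha

theorem lam_inv {a b : ι} {x : X} (ha : x ∈ U a) (hb : x ∈ U b) :
    Fr.lam a b x * Fr.lam b a x = 1 := by rw [lam_coc ha hb, lam_self ha]

theorem lam_ne {a b : ι} {x : X} (ha : x ∈ U a) (hb : x ∈ U b) : Fr.lam a b x ≠ 0 :=
  left_ne_zero_of_mul_eq_one (lam_inv ha hb)

theorem sm_lam {a b : ι} {x : X} (ha : x ∈ U a) (hb : x ∈ U b) : SmAt (Fr.lam a b) x :=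
  SmAt.sum fun k _ => (Fr.smv a k x ha).mul (Fr.smu b k x hb)

/-- connection form `ω_a = v_a · du_a` -/
def omF (Fr : DFrames P U) (a : ι) : OneF X := ∑ k, fmul (Fr.v a k) (dF0 (Fr.u a k))

/-- connection form `ω_a = v_a · du_a` on a functional -/
def om (Fr : DFrames P U) (T : (C2 →L[ℝ] ℂ) →ₗ[ℂ] ℂ) (a : ι) (x : X) : ℂ :=
  ∑ k, Fr.v a k x * DT T x (Fr.u a k)

theorem vv_omF (a : ι) (x : X) (q : Qi) : vv (Fr.omF a) x q = Fr.om (tq q) a x := by
  simp only [omF, om, vv_sum, vv_fmul, vv_dF0]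

variable (hU : ∀ a, IsOpen (U a))

include hU

theorem curP_eq {a : ι} {x : X} (ha : x ∈ U a) (T T' : (C2 →L[ℝ] ℂ) →ₗ[ℂ] ℂ) :
    curP P x T T' = ∑ k, (DT T x (Fr.v a k) * DT T' x (Fr.u a k) -
      DT T' x (Fr.v a k) * DT T x (Fr.u a k)) := by
  have hn : ∀ᶠ y in 𝓝 x, y ∈ U a := (hU a).mem_nhds ha
  exact curP_frame (fun k => (Fr.smu a k x ha).dat) (fun k => (Fr.smv a k x ha).dat)
    (fun i j => hn.mono fun y hy => Fr.eq a y hy i j) (hn.mono fun y hy => Fr.one a y hy) T T'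

theorem om_eq (T : (C2 →L[ℝ] ℂ) →ₗ[ℂ] ℂ) {a b : ι} {x : X} (ha : x ∈ U a) (hb : x ∈ U b)
    {l : X → ℂ} (hl : SmAt l x) (he : ∀ᶠ y in 𝓝 x, Complex.exp (l y) = Fr.lam a b y) :
    Fr.om T b x = Fr.om T a x + DT T x l := by
  have hn : ∀ᶠ y in 𝓝 x, y ∈ U a ∧ y ∈ U b := by
    filter_upwards [(hU a).mem_nhds ha, (hU b).mem_nhds hb] with y h1 h2 using ⟨h1, h2⟩
  have h1 : ∀ k, DT T x (Fr.u b k) = DT T x (fun y => Fr.lam a b y * Fr.u a k y) := fun k =>
    DT_congr T (hn.mono fun y hy => u_eq hy.1 hy.2 k)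
  have h2 : DT T x (Fr.lam a b) = Fr.lam a b x * DT T x l := by
    have : Fr.lam a b =ᶠ[𝓝 x] fun y => Complex.exp (l y) := he.mono fun y hy => hy.symm
    rw [DT_congr T this, DT_exp T hl.dat, he.self_of_nhds]
  have h3 : ∀ k, DT T x (Fr.u b k) =
      Fr.lam a b x * DT T x (Fr.u a k) + Fr.lam a b x * DT T x l * Fr.u a k x := by
    intro k
    rw [h1, DT_mul T (sm_lam ha hb).dat (Fr.smu a k x ha).dat, h2]
  have h4 := lam_inv (Fr := Fr) hb ha
  have h5 := Fr.one a x ha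
  simp only [om, h3, v_eq (Fr := Fr) ha hb]
  have h6 : ∀ k, Fr.lam b a x * Fr.v a k x * (Fr.lam a b x * DT T x (Fr.u a k) +
      Fr.lam a b x * DT T x l * Fr.u a k x) =
      (Fr.lam b a x * Fr.lam a b x) * (Fr.v a k x * DT T x (Fr.u a k)) +
      (Fr.lam b a x * Fr.lam a b x) * DT T x l * (Fr.v a k x * Fr.u a k x) := fun k => by ring
  simp only [h6, Finset.sum_add_distrib, ← Finset.mul_sum, h5, h4]
  ring

end DFrames

/-- logarithms of the transition functions, and their integral cocycle -/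
structure LogData {P : X → Matrix κ κ ℂ} {U : ι → Set X} (Fr : DFrames P U) where
  l : ι → ι → X → ℂ
  n : ι → ι → ι → ℤ
  sm : ∀ a b x, x ∈ U a → x ∈ U b → SmAt (l a b) x
  exp : ∀ a b x, x ∈ U a → x ∈ U b → Complex.exp (l a b x) = Fr.lam a b x
  coc : ∀ a b c x, x ∈ U a → x ∈ U b → x ∈ U c →
    l a b x + l b c x - l a c x = 2 * Real.pi * Complex.I * n a b c

namespace LogData

variable {P : X → Matrix κ κ ℂ}

theorem isCoc {U : ι → Set X} {Fr : DFrames P U} (LD : LogData Fr) : IsCoc U LD.n := by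
  intro a b c d x ha hb hc hd
  have h1 := LD.coc b c d x hb hc hd
  have h2 := LD.coc a c d x ha hc hd
  have h3 := LD.coc a b d x ha hb hd
  have h4 := LD.coc a b c x ha hb hc
  have h5 : (2 * Real.pi * Complex.I : ℂ) ≠ 0 := by simp [Real.pi_ne_zero]
  have h6 : (2 * Real.pi * Complex.I : ℂ) *
      ((LD.n b c d : ℂ) - LD.n a c d + LD.n a b d - LD.n a b c) = 0 := by
    linear_combination -h1 + h2 - h3 + h4
  have h7 := (mul_eq_zero.1 h6).resolve_left h5
  exact_mod_cast h7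

variable {U : ι → Set X} {κ : Type} [Fintype κ] [DecidableEq κ] {L : LB X κ}
  {Fr : DFrames L.P U}

/-- **the zigzag of the curvature of a line bundle** -/
def zig [IsManifold 𝓘(ℂ, C2) ω X] (LD : LogData Fr) (hU : ∀ a, IsOpen (U a)) : Zig U L.curv where
  om := Fr.omF
  l := LD.l
  r a b c := 2 * Real.pi * Complex.I * LD.n a b c
  sm_om a x hx := OAt.sum fun k _ => OAt.fmul (Fr.smv a k x hx) (OAt_dF0 (Fr.smu a k x hx))
  sml := LD.sm
  d_om a x hx q q' := by
    rw [DFrames.omF, pr_d_sum fun k _ => OAt.fmul (Fr.smv a k x hx) (OAt_dF0 (Fr.smu a k x hx)),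
      pr_curv, DFrames.curP_eq (Fr := Fr) hU hx]
    exact Finset.sum_congr rfl fun k _ => pr_d_fds (Fr.smv a k x hx) (Fr.smu a k x hx) q q'
  dl a b x ha hb q := by
    rw [DFrames.vv_omF, DFrames.vv_omF]
    refine DFrames.om_eq hU (tq q) ha hb (LD.sm a b x ha hb) ?_
    filter_upwards [(hU a).mem_nhds ha, (hU b).mem_nhds hb] with y hy hy'
    exact LD.exp a b y hy hy'
  coc := LD.coc

end LogData

end Vale.Agent.P267.H995
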