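import Mathlib

/-!
# P267, package CURV-C5: counting the orbits of compact curves

Linear algebra over the ring of Laurent polynomials.  In the application `Xt → X` is the infinite
cyclic covering of a compact complex surface `X` with `b_2 (X) = n`, the classes `e_{i,l}`
(`i : ι`, `card ι = n`, `l : ℤ`) form an orthonormal system (`e_{i,l} · e_{j,k} = -δ`) of
compactly supported classes, translated by the deck group `ℤ`, and the `c`'s are the compact
curves of `Xt`, on which `ℤ` acts.  If every finite combination of the `e_{i,l}` which has degree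
zero on all compact curves vanishes, then there are at least `n` orbits of compact curves.
-/

namespace Vale.Agent.P267.H995

open scoped BigOperators

section Kernel

variable {ι κ R : Type*} [Fintype ι] [Fintype κ] [CommRing R] [Nontrivial R]

/-- Laurent polynomial version: `c j i : ℤ →₀ R` lists the degrees `c j i l = C_{j,0} · e_{i,l}`,
so that `C_{j,k} · e_{i,l} = c j i (l - k)`. -/
theorem card_le_of_no_orthogonal (c : κ → ι → (ℤ →₀ R))
    (h : ∀ y : ι → (ℤ →₀ R),
      (∀ j k, ∑ i, (y i).sum (fun l a => a * c j i (l - k)) = 0) → y = 0) :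
    Fintype.card ι ≤ Fintype.card κ := by
  classical
  let A := AddMonoidAlgebra R ℤ
  -- the reversed degrees
  let c' : κ → ι → A := fun j i => AddMonoidAlgebra.ofCoeff ((c j i).equivMapDomain (Equiv.neg ℤ))
  let f : (ι → A) →ₗ[A] (κ → A) :=
    { toFun := fun y j => ∑ i, y i * c' j i
      map_add' := by
        intro y z
        funext j
        simp [add_mul, Finset.sum_add_distrib]
      map_smul' := by
        intro a y
        funext j
        simp only [Pi.smul_apply, smul_eq_mul, mul_assoc, RingHom.id_apply]
        exact (Finset.mul_sum _ _ _).symm }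
  have hf : Function.Injective f := by
    rw [← LinearMap.ker_eq_bot, LinearMap.ker_eq_bot']
    intro y hy
    have key : (fun i => (y i).coeff) = 0 := by
      apply h
      intro j k
      have h1 : (f y j).coeff k = 0 := by rw [hy]; rfl
      have h2 : (f y j).coeff k = ∑ i, (y i * c' j i).coeff k := by
        change (∑ i, y i * c' j i).coeff k = _
        rw [AddMonoidAlgebra.coeff_sum, Finsupp.finsetSum_apply]
      rw [h2] at h1
      rw [← h1]
      refine Finset.sum_congr rfl (fun i _ => ?_)
      rw [AddMonoidAlgebra.coeff_mul_apply_left]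
      refine Finsupp.sum_congr (fun l _ => ?_)
      congr 1
      change _ = ((c j i).equivMapDomain (Equiv.neg ℤ)) (-l + k)
      rw [Finsupp.equivMapDomain_apply]
      congr 1
      simp
      ring
    funext i
    have := congrFun key i
    exact AddMonoidAlgebra.coeff_eq_zero.1 this
  exact card_le_of_injective A f hf

end Kernel

section Orbits

variable {ι 𝒞 R : Type*} [Finite ι] [CommRing R] [Nontrivial R] [AddAction ℤ 𝒞]

/-- **Count lemma.**  `𝒞` is a set of compact curves with an action of `ℤ`; `deg c i l` is the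
degree of the class `e_{i,l}` on the curve `c`.  Suppose that the degrees are equivariant, that
each curve meets only finitely many of the `e_{i,l}`, and that a finite linear combination
`∑ y_{i,l} e_{i,l}` which has degree zero on all curves of `𝒞` is zero.  Then there are
curves `f i`, `i : ι`, which lie in pairwise different orbits. -/
theorem exists_orbits (deg : 𝒞 → ι → ℤ → R)
    (hequi : ∀ c (k : ℤ) i l, deg (k +ᵥ c) i (l + k) = deg c i l)
    (hfin : ∀ c i, {l : ℤ | deg c i l ≠ 0}.Finite)
    (h : ∀ y : ι × ℤ →₀ R, (∀ c, y.sum (fun p a => a * deg c p.1 p.2) = 0) → y = 0) :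
    ∃ f : ι → 𝒞, ∀ i i' (k : ℤ), k +ᵥ f i = f i' → i = i' := by
  classical
  have := Fintype.ofFinite ι
  let Q := AddAction.orbitRel.Quotient ℤ 𝒞
  -- an embedding of `ι` in the set of orbits is enough
  suffices hemb : Nonempty (ι ↪ Q) by
    obtain ⟨g⟩ := hemb
    refine ⟨fun i => (g i).out, fun i i' k hk => ?_⟩
    apply g.injective
    rw [← Quotient.out_eq (g i), ← Quotient.out_eq (g i')]
    apply Quotient.sound
    change AddAction.orbitRel ℤ 𝒞 _ _
    rw [AddAction.orbitRel_apply]
    refine ⟨-k, ?_⟩
    change -k +ᵥ (g i').out = (g i).out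
    change k +ᵥ (g i).out = (g i').out at hk
    rw [← hk, neg_vadd_vadd]
  rcases finite_or_infinite Q with hQ | hQ
  · have := Fintype.ofFinite Q
    rw [Function.Embedding.nonempty_iff_card_le]
    refine card_le_of_no_orthogonal (R := R)
      (fun (j : Q) i => Finsupp.ofSupportFinite (fun l => deg j.out i l) (hfin j.out i)) ?_
    intro y hy
    -- the finitely supported function on `ι × ℤ`
    let Y : ι × ℤ →₀ R := Finsupp.curryEquiv.symm (Finsupp.equivFunOnFinite.symm y)
    have hYapp : ∀ i l, Y (i, l) = y i l := by
      intro i l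
      have := Finsupp.curry_apply Y i l
      rw [← this]
      change (Finsupp.curryEquiv (Finsupp.curryEquiv.symm (Finsupp.equivFunOnFinite.symm y))) i l
        = _
      rw [Equiv.apply_symm_apply]
      rfl
    have hYsum : ∀ g : ι → ℤ → R, Y.sum (fun p a => a * g p.1 p.2)
        = ∑ i, (y i).sum (fun l a => a * g i l) := by
      intro g
      have h1 : ∀ i, (y i).sum (fun l a => a * g i l)
          = ∑ l ∈ (Finset.univ.biUnion fun i => (y i).support), y i l * g i l := by
        intro i
        refine Finsupp.sum_of_support_subset _ ?_ _ (by simp)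
        exact Finset.subset_biUnion_of_mem (fun i => (y i).support) (Finset.mem_univ i)
      have h2 : Y.sum (fun p a => a * g p.1 p.2)
          = ∑ p ∈ (Finset.univ ×ˢ (Finset.univ.biUnion fun i => (y i).support)),
            Y p * g p.1 p.2 := by
        refine Finsupp.sum_of_support_subset _ ?_ _ (by simp)
        rintro ⟨i, l⟩ hp
        rw [Finset.mem_product]
        refine ⟨Finset.mem_univ _, ?_⟩
        rw [Finsupp.mem_support_iff, hYapp] at hp
        exact Finset.mem_biUnion.2 ⟨i, Finset.mem_univ _, Finsupp.mem_support_iff.2 hp⟩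
      rw [h2, Finset.sum_product]
      refine Finset.sum_congr rfl fun i _ => ?_
      rw [h1]
      refine Finset.sum_congr rfl fun l _ => ?_
      rw [hYapp]
    have hY : Y = 0 := by
      apply h
      intro c
      -- `c` is a translate of the representative of its orbit
      obtain ⟨k, hk⟩ : ∃ k : ℤ, k +ᵥ (Quotient.mk (AddAction.orbitRel ℤ 𝒞) c).out = c := by
        have := Quotient.exact (Quotient.out_eq (Quotient.mk (AddAction.orbitRel ℤ 𝒞) c))
        change AddAction.orbitRel ℤ 𝒞 _ _ at this
        rw [AddAction.orbitRel_apply] at this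
        obtain ⟨k, hk⟩ := this
        refine ⟨-k, ?_⟩
        change k +ᵥ c = _ at hk
        rw [← hk, neg_vadd_vadd]
      rw [hYsum]
      rw [← hy (Quotient.mk (AddAction.orbitRel ℤ 𝒞) c) k]
      refine Finset.sum_congr rfl fun i _ => Finsupp.sum_congr fun l _ => ?_
      congr 1
      rw [← hk]
      have := hequi (Quotient.mk (AddAction.orbitRel ℤ 𝒞) c).out k i (l - k)
      rw [sub_add_cancel] at this
      rw [hk] at this
      rw [hk, this]
      rfl
    funext i
    ext l
    rw [← hYapp, hY]
    rfl
  · exact ⟨(Function.Embedding.trans (Fintype.equivFin ι).toEmbedding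
      (Function.Embedding.trans Fin.valEmbedding (Infinite.natEmbedding Q)))⟩

/-- **Count lemma, geometric form.**  `H` is a module of compactly supported classes on `Xt`
with its intersection form `B`, `e i l` the orthonormal system of translates, `D c x` the degree of
`x` on the compact curve `c`.  If a finite combination of the `e i l` of degree zero on all the
compact curves is orthogonal to all `e i l` (because `e i l` has a representing divisor consisting
of compact curves), then there are curves `f i`, `i : ι`, in pairwise different orbits. -/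
theorem exists_orbits_of_pairing {H : Type*} [AddCommGroup H] [Module R H]
    (e : ι → ℤ → H) (B : H → H →ₗ[R] R)
    (hself : ∀ i l, B (e i l) (e i l) = -1)
    (horth : ∀ i l i' l', (i, l) ≠ (i', l') → B (e i l) (e i' l') = 0)
    (D : 𝒞 → H →ₗ[R] R)
    (hequi : ∀ c (k : ℤ) i l, D (k +ᵥ c) (e i (l + k)) = D c (e i l))
    (hfin : ∀ c i, {l : ℤ | D c (e i l) ≠ 0}.Finite)
    (h : ∀ x ∈ Submodule.span R (Set.range (fun p : ι × ℤ => e p.1 p.2)),
      (∀ c, D c x = 0) → ∀ i l, B (e i l) x = 0) :
    ∃ f : ι → 𝒞, ∀ i i' (k : ℤ), k +ᵥ f i = f i' → i = i' := by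
  classical
  refine exists_orbits (R := R) (fun c i l => D c (e i l)) hequi hfin ?_
  intro y hy
  let x : H := y.sum (fun p a => a • e p.1 p.2)
  have hx : x ∈ Submodule.span R (Set.range (fun p : ι × ℤ => e p.1 p.2)) := by
    refine Submodule.sum_mem _ fun p _ => Submodule.smul_mem _ _ (Submodule.subset_span ⟨p, rfl⟩)
  have hD : ∀ c, D c x = 0 := by
    intro c
    rw [← hy c]
    change D c (∑ p ∈ y.support, y p • e p.1 p.2) = ∑ p ∈ y.support, y p * D c (e p.1 p.2)
    rw [map_sum]
    simp
  have hB := h x hx hD
  ext ⟨i, l⟩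
  have h1 := hB i l
  change B (e i l) (∑ p ∈ y.support, y p • e p.1 p.2) = 0 at h1
  rw [map_sum] at h1
  have h2 : ∑ p ∈ y.support, B (e i l) (y p • e p.1 p.2) = - y (i, l) := by
    rw [Finset.sum_eq_single (i, l)]
    · rw [map_smul, hself]
      simp
    · intro p _ hp
      rw [map_smul, horth _ _ _ _ (Ne.symm hp), smul_zero]
    · intro hp
      rw [Finsupp.notMem_support_iff] at hp
      rw [hp, zero_smul, map_zero]
  rw [h2] at h1
  simpa using h1

end Orbits

section Direct

/-- **Direct count** (no linear algebra): every basis vector `e i l` has a curve `c` on which its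
degree is negative, degrees on these curves of the `e i l` and of the sums of two different `e`'s
are `≥ -1`.  Then the curves `c i 0` lie in pairwise different orbits. -/
theorem direct_count {ι 𝒞 : Type*} [AddAction ℤ 𝒞] (deg : 𝒞 → ι → ℤ → ℤ)
    (hequi : ∀ c (k : ℤ) i l, deg (k +ᵥ c) i (l + k) = deg c i l)
    (C : ι → 𝒞) (hneg : ∀ i, deg (C i) i 0 < 0)
    (htwo : ∀ i j l, (i, 0) ≠ (j, l) → -1 ≤ deg (C i) i 0 + deg (C i) j l) :
    ∀ i i' (k : ℤ), k +ᵥ C i = C i' → i = i' := by
  intro i i' k hk
  by_contra hne
  have h1 := htwo i i' (-k) (by simp [hne])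
  have h2 := hneg i
  have h3 := hneg i'
  have h4 := hequi (C i) k i' (-k)
  rw [hk, neg_add_cancel] at h4
  omega

/-- From an expansion `e · e = ∑ m_c (e · c) = -1` with `m_c ≥ 0` one gets a curve `c` in the
divisor with `e · c < 0`. -/
theorem exists_neg_of_sum {𝒞 : Type*} (s : Finset 𝒞) (m : 𝒞 → ℕ) (d : 𝒞 → ℤ)
    (h : ∑ c ∈ s, (m c : ℤ) * d c < 0) : ∃ c ∈ s, 0 < m c ∧ d c < 0 := by
  by_contra hcon
  push Not at hcon
  refine absurd h (not_lt.2 (Finset.sum_nonneg fun c hc => ?_))
  rcases Nat.eq_zero_or_pos (m c) with h0 | h0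
  · simp [h0]
  · exact mul_nonneg (by positivity) (hcon c hc h0)

end Direct

section Images

/-- Different orbits have different images.  `P` is the (connected, complete metric or compact)
source of a parametrisation `g` of the compact curve `c = range g`; `K = range g'` is another one;
`T k` are the deck transformations.  If `range g ⊆ ⋃ k, T k '' K` and `g ⁻¹ (T k '' K)` is closed
with clopen interior (identity theorem), then `range g ⊆ T k '' K` for some `k`. -/
theorem exists_translate_of_subset {P M : Type*} [TopologicalSpace P] [BaireSpace P]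
    [PreconnectedSpace P] [Nonempty P] (g : P → M) (S : ℤ → Set M)
    (hcov : Set.range g ⊆ ⋃ k, S k) (hclosed : ∀ k, IsClosed (g ⁻¹' S k))
    (hident : ∀ k, IsClosed (interior (g ⁻¹' S k))) :
    ∃ k, Set.range g ⊆ S k := by
  have hU : (⋃ k, g ⁻¹' S k) = Set.univ := by
    refine Set.eq_univ_of_forall fun x => ?_
    have := hcov ⟨x, rfl⟩
    simpa using this
  obtain ⟨k, hk⟩ := nonempty_interior_of_iUnion_of_closed hclosed hU
  refine ⟨k, ?_⟩
  have hclopen : IsClopen (interior (g ⁻¹' S k)) := ⟨hident k, isOpen_interior⟩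
  rcases isClopen_iff.1 hclopen with h0 | h1
  · exact absurd hk (by rw [h0]; exact Set.not_nonempty_empty)
  · rintro _ ⟨x, rfl⟩
    have hx : x ∈ interior (g ⁻¹' S k) := by rw [h1]; trivial
    have hx' : x ∈ g ⁻¹' S k := interior_subset hx
    exact hx'

/-- If two compact sets are contained in translates of each other and the action is properly
discontinuous on them (in the weak sense that a far translate of `c` is disjoint from `c`), then
they are translates of each other. -/
theorem eq_translate_of_subset {M : Type*} [AddAction ℤ M] (c c' : Set M) (hne : c.Nonempty)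
    (hdisj : ∃ N : ℕ, ∀ k : ℤ, (N : ℤ) ≤ |k| → Disjoint ((fun x => k +ᵥ x) '' c) c)
    (k k' : ℤ) (h : c ⊆ (fun x => k +ᵥ x) '' c') (h' : c' ⊆ (fun x => k' +ᵥ x) '' c) :
    c = (fun x => k +ᵥ x) '' c' := by
  obtain ⟨N, hN⟩ := hdisj
  have h1 : c ⊆ (fun x => (k + k') +ᵥ x) '' c := by
    intro x hx
    obtain ⟨y, hy, rfl⟩ := h hx
    obtain ⟨z, hz, rfl⟩ := h' hy
    exact ⟨z, hz, by simp [add_vadd]⟩
  have h2 : ∀ j : ℕ, c ⊆ (fun x => ((j : ℤ) * (k + k')) +ᵥ x) '' c := by
    intro j
    induction j with
    | zero => intro x hx; exact ⟨x, hx, by simp⟩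
    | succ j ih =>
      intro x hx
      obtain ⟨y, hy, rfl⟩ := ih hx
      obtain ⟨z, hz, rfl⟩ := h1 hy
      refine ⟨z, hz, ?_⟩
      simp only [vadd_vadd]
      congr 1
      push_cast
      ring
  have h0 : k + k' = 0 := by
    by_contra hk0
    obtain ⟨x, hx⟩ := hne
    have hd := hN ((N : ℤ) * (k + k')) (by
      rw [abs_mul]
      have : (1 : ℤ) ≤ |k + k'| := Int.one_le_abs hk0
      calc (N : ℤ) = |(N : ℤ)| * 1 := by simp
        _ ≤ |(N : ℤ)| * |k + k'| := by gcongr)
    exact Set.disjoint_left.1 hd (h2 N hx) hx
  refine Set.Subset.antisymm h ?_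
  rintro _ ⟨y, hy, rfl⟩
  obtain ⟨z, hz, rfl⟩ := h' hy
  simpa [vadd_vadd, h0] using hz

end Images

end Vale.Agent.P267.H995
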