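import Vale.Agent.P267.H399.Defs

/-!
# P267, UNI-LB: derivations at a point

`DT T x f = T (d (f ∘ e⁻¹))`, `e` the preferred chart at `x`, `T` a complex linear functional on the
real-linear maps `ℂ² → ℂ`.  The functionals `tz i`, `tb i` give `∂_i`, `∂̄_i`.
-/

open scoped Manifold ContDiff ComplexConjugate Matrix
open Set Filter Topology

noncomputable section

namespace Vale.Agent.P267.H995

open Vale.Agent.P267.FL

/-- the functional `L ↦ L(∂/∂z_i)` -/
def tz (i : Fin 2) : (C2 →L[ℝ] ℂ) →ₗ[ℂ] ℂ where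
  toFun L := (1 / 2 : ℂ) • (L (Pi.single i 1) - Complex.I • L (Pi.single i Complex.I))
  map_add' L M := by simp only [_root_.add_apply, smul_eq_mul]; ring
  map_smul' c L := by
    simp only [_root_.smul_apply, smul_eq_mul, RingHom.id_apply]; ring

/-- the functional `L ↦ L(∂/∂z̄_i)` -/
def tb (i : Fin 2) : (C2 →L[ℝ] ℂ) →ₗ[ℂ] ℂ where
  toFun L := (1 / 2 : ℂ) • (L (Pi.single i 1) + Complex.I • L (Pi.single i Complex.I))
  map_add' L M := by simp only [_root_.add_apply, smul_eq_mul]; ring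
  map_smul' c L := by
    simp only [_root_.smul_apply, smul_eq_mul, RingHom.id_apply]; ring

variable {X : Type*} [TopologicalSpace X] [ChartedSpace C2 X]

/-- real differentiability at `x`, in the preferred chart -/
def DAt (f : X → ℂ) (x : X) : Prop :=
  DifferentiableAt ℝ (fun z => f ((chartAt C2 x).symm z)) (chartAt C2 x x)

/-- the derivation at `x` attached to the functional `T` -/
def DT (T : (C2 →L[ℝ] ℂ) →ₗ[ℂ] ℂ) (x : X) (f : X → ℂ) : ℂ :=
  T (fderiv ℝ (fun z => f ((chartAt C2 x).symm z)) (chartAt C2 x x))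

theorem del0_eq (f : X → ℂ) (x : X) (i : Fin 2) : del0 f x i = DT (tz i) x f := rfl

theorem dbar0_eq (f : X → ℂ) (x : X) (i : Fin 2) : dbar0 0 f x i = DT (tb i) x f := by
  unfold dbar0 DT
  rw [LB.loc0_zero]
  rfl

section DAt

variable {x : X} {f g : X → ℂ}

theorem DAt.add (hf : DAt f x) (hg : DAt g x) : DAt (fun y => f y + g y) x :=
  DifferentiableAt.fun_add hf hg

theorem DAt.mul (hf : DAt f x) (hg : DAt g x) : DAt (fun y => f y * g y) x :=
  DifferentiableAt.fun_mul hf hg

theorem DAt.sum {κ : Type*} {s : Finset κ} {f : κ → X → ℂ} (hf : ∀ i ∈ s, DAt (f i) x) :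
    DAt (fun y => ∑ i ∈ s, f i y) x :=
  DifferentiableAt.fun_sum hf

theorem DAt.const (c : ℂ) : DAt (fun _ : X => c) x := differentiableAt_const _

theorem tendsto_chart_symm (x : X) :
    Tendsto (chartAt C2 x).symm (𝓝 (chartAt C2 x x)) (𝓝 x) := by
  have h := (chartAt C2 x).continuousAt_symm (x := chartAt C2 x x)
    ((chartAt C2 x).map_source (mem_chart_source C2 x))
  rw [ContinuousAt, (chartAt C2 x).left_inv (mem_chart_source C2 x)] at h
  exact h

theorem eventuallyEq_chart (h : f =ᶠ[𝓝 x] g) :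
    (fun z => f ((chartAt C2 x).symm z)) =ᶠ[𝓝 (chartAt C2 x x)]
      (fun z => g ((chartAt C2 x).symm z)) :=
  (tendsto_chart_symm x).eventually h

theorem DAt.congr (hf : DAt f x) (h : g =ᶠ[𝓝 x] f) : DAt g x :=
  DifferentiableAt.congr_of_eventuallyEq hf (eventuallyEq_chart h)

theorem DAt.comp {F : ℂ → ℂ} (hf : DAt f x) (hF : DifferentiableAt ℂ F (f x)) :
    DAt (fun y => F (f y)) x := by
  have h0 : f ((chartAt C2 x).symm (chartAt C2 x x)) = f x := by
    rw [(chartAt C2 x).left_inv (mem_chart_source C2 x)]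
  refine DifferentiableAt.comp (𝕜 := ℝ) (g := F) (chartAt C2 x x) ?_ hf
  rw [h0]
  exact hF.restrictScalars ℝ

end DAt

section DT

variable {x : X} {f g : X → ℂ} (T : (C2 →L[ℝ] ℂ) →ₗ[ℂ] ℂ)

theorem DT_congr (h : f =ᶠ[𝓝 x] g) : DT T x f = DT T x g := by
  unfold DT
  rw [(eventuallyEq_chart h).fderiv_eq]

theorem DT_add (hf : DAt f x) (hg : DAt g x) :
    DT T x (fun y => f y + g y) = DT T x f + DT T x g := by
  unfold DT
  rw [fderiv_fun_add hf hg, map_add]

theorem DT_sum {κ : Type*} {s : Finset κ} {f : κ → X → ℂ} (hf : ∀ i ∈ s, DAt (f i) x) :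
    DT T x (fun y => ∑ i ∈ s, f i y) = ∑ i ∈ s, DT T x (f i) := by
  unfold DT
  rw [fderiv_fun_sum hf, map_sum]

theorem DT_const (c : ℂ) : DT T x (fun _ => c) = 0 := by
  unfold DT
  simp

theorem DT_mul (hf : DAt f x) (hg : DAt g x) :
    DT T x (fun y => f y * g y) = f x * DT T x g + DT T x f * g x := by
  unfold DT
  rw [fderiv_fun_mul hf hg, map_add, map_smul, map_smul,
    (chartAt C2 x).left_inv (mem_chart_source C2 x)]
  simp only [smul_eq_mul]
  ring

theorem DT_const_mul (c : ℂ) (hf : DAt f x) : DT T x (fun y => c * f y) = c * DT T x f := by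
  rw [DT_mul T (DAt.const c) hf, DT_const]
  ring

theorem DT_comp {F : ℂ → ℂ} {F' : ℂ} (hf : DAt f x) (hF : HasDerivAt F F' (f x)) :
    DT T x (fun y => F (f y)) = F' * DT T x f := by
  unfold DT
  have h0 : f ((chartAt C2 x).symm (chartAt C2 x x)) = f x := by
    rw [(chartAt C2 x).left_inv (mem_chart_source C2 x)]
  have h1 : HasFDerivAt (𝕜 := ℝ) F (F' • (1 : ℂ →L[ℝ] ℂ))
      (f ((chartAt C2 x).symm (chartAt C2 x x))) := by
    rw [h0]
    exact hF.complexToReal_fderiv
  have h2 := h1.comp (chartAt C2 x x) (f := fun z => f ((chartAt C2 x).symm z)) hf.hasFDerivAt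
  have h3 : fderiv ℝ (fun z => F (f ((chartAt C2 x).symm z))) (chartAt C2 x x) =
      F' • fderiv ℝ (fun z => f ((chartAt C2 x).symm z)) (chartAt C2 x x) := by
    rw [show (fun z => F (f ((chartAt C2 x).symm z))) = F ∘ fun z => f ((chartAt C2 x).symm z)
      from rfl, h2.fderiv]
    ext v
    simp
  rw [h3, map_smul, smul_eq_mul]

theorem DT_exp (hf : DAt f x) :
    DT T x (fun y => Complex.exp (f y)) = Complex.exp (f x) * DT T x f :=
  DT_comp T hf (Complex.hasDerivAt_exp _)

end DT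

section Reg

/-- smooth functions are differentiable -/
theorem DAt_of_reg {f : X → ℂ} (hf : Reg0 ∞ 0 f) (x : X) : DAt f x := by
  have h := hf (chartAt C2 x) (chart_mem_atlas C2 x)
  rw [LB.loc0_zero] at h
  have h2 := (h (chartAt C2 x x) ((chartAt C2 x).map_source (mem_chart_source C2 x))).contDiffAt
    ((chartAt C2 x).open_target.mem_nhds ((chartAt C2 x).map_source (mem_chart_source C2 x)))
  exact h2.differentiableAt (by simp)

end Reg

end Vale.Agent.P267.H995
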