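import Vale.Agent.P267.H995.Part

/-!
# P267, UNI-LB: calculus of one-forms of the FL language in components

`fmul f A` = the one-form `f A`; `OAt A x` = smoothness at `x`;
`pr_d_fmul : (d (f A)) = df ∧ A + f dA`, `pr_d_dF0 : d d s = 0`, in components at `x`.
-/

set_option linter.unusedSectionVars false

open scoped Manifold ContDiff ComplexConjugate Matrix
open Set Filter Topology

noncomputable section

namespace Vale.Agent.P267.H995

open Vale.Agent.P267.FL

/-- product of a function and a one-form -/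
def fmul {X : Type*} (f : X → ℂ) (A : OneF X) : OneF X :=
  ⟨fun x i => f x * A.f10 x i, fun x i => f x * A.f01 x i⟩

section comps

variable {X : Type*}

@[simp] theorem vv_fmul (f : X → ℂ) (A : OneF X) (x : X) (q : Qi) :
    vv (fmul f A) x q = f x * vv A x q := by
  rcases q with i | i <;> rfl

@[simp] theorem vv_zero (x : X) (q : Qi) : vv (0 : OneF X) x q = 0 := by
  rcases q with i | i <;> rfl

theorem vv_neg (A : OneF X) (x : X) (q : Qi) : vv (-A) x q = -vv A x q := by
  rcases q with i | i <;> rfl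

theorem vv_sum {κ : Type*} (s : Finset κ) (A : κ → OneF X) (x : X) (q : Qi) :
    vv (∑ i ∈ s, A i) x q = ∑ i ∈ s, vv (A i) x q := by
  classical
  induction s using Finset.induction_on with
  | empty => simp
  | insert a s ha ih => rw [Finset.sum_insert ha, Finset.sum_insert ha, vv_add, ih]

@[simp] theorem pr_zero (x : X) (q q' : Qi) : pr (0 : TwoF X) x q q' = 0 := by
  have := pr_smul (0 : ℂ) (0 : TwoF X) x q q'
  rw [zero_smul] at this
  rw [this, zero_mul]

theorem pr_sum {κ : Type*} (s : Finset κ) (A : κ → TwoF X) (x : X) (q q' : Qi) :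
    pr (∑ i ∈ s, A i) x q q' = ∑ i ∈ s, pr (A i) x q q' := by
  classical
  induction s using Finset.induction_on with
  | empty => simp
  | insert a s ha ih => rw [Finset.sum_insert ha, Finset.sum_insert ha, pr_add, ih]

theorem pr_anti (F : TwoF X) (x : X) (q q' : Qi) : pr F x q' q = -pr F x q q' := by
  rcases q with i | i <;> rcases q' with j | j
  · fin_cases i <;> fin_cases j <;> simp [pr]
  · rfl
  · simp [pr]
  · fin_cases i <;> fin_cases j <;> simp [pr]

end comps

variable {X : Type*} [TopologicalSpace X] [ChartedSpace C2 X]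

section cfun

theorem cfun_inl (A : OneF X) (x : X) (i : Fin 2) (z : C2) : cfun A x (Sum.inl i) z =
    ∑ p, jac (chartAt C2 x) ((chartAt C2 x).symm z) p i * A.f10 ((chartAt C2 x).symm z) p := rfl

theorem cfun_inr (A : OneF X) (x : X) (i : Fin 2) (z : C2) : cfun A x (Sum.inr i) z =
    ∑ p, conj (jac (chartAt C2 x) ((chartAt C2 x).symm z) p i) *
      A.f01 ((chartAt C2 x).symm z) p := by
  change (_ ^ (0 : ℤ)) • ∑ p, _ = _
  rw [zpow_zero, one_smul]
  rfl

/-- the component functions are local -/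
theorem cfun_congr {A B : OneF X} {x : X} (h : ∀ᶠ y in 𝓝 x, ∀ q, vv A y q = vv B y q) (q : Qi) :
    cfun A x q =ᶠ[𝓝 (chartAt C2 x x)] cfun B x q := by
  filter_upwards [(tendsto_chart_symm x).eventually h] with z hz
  rcases q with i | i
  · rw [cfun_inl, cfun_inl]
    exact Finset.sum_congr rfl fun p _ => by
      rw [show A.f10 _ p = B.f10 _ p from hz (Sum.inl p)]
  · rw [cfun_inr, cfun_inr]
    exact Finset.sum_congr rfl fun p _ => by
      rw [show A.f01 _ p = B.f01 _ p from hz (Sum.inr p)]

theorem cfun_fmul (f : X → ℂ) (A : OneF X) (x : X) (q : Qi) (z : C2) :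
    cfun (fmul f A) x q z = f ((chartAt C2 x).symm z) * cfun A x q z := by
  rcases q with i | i
  · rw [cfun_inl, cfun_inl, Finset.mul_sum]
    refine Finset.sum_congr rfl fun p _ => ?_
    change _ * (f _ * A.f10 _ p) = _
    ring
  · rw [cfun_inr, cfun_inr, Finset.mul_sum]
    refine Finset.sum_congr rfl fun p _ => ?_
    change _ * (f _ * A.f01 _ p) = _
    ring

theorem cfun_add (A B : OneF X) (x : X) (q : Qi) (z : C2) :
    cfun (A + B) x q z = cfun A x q z + cfun B x q z := by
  rcases q with i | i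
  · rw [cfun_inl, cfun_inl, cfun_inl, ← Finset.sum_add_distrib]
    refine Finset.sum_congr rfl fun p _ => ?_
    change _ * (A.f10 _ p + B.f10 _ p) = _
    ring
  · rw [cfun_inr, cfun_inr, cfun_inr, ← Finset.sum_add_distrib]
    refine Finset.sum_congr rfl fun p _ => ?_
    change _ * (A.f01 _ p + B.f01 _ p) = _
    ring

theorem cfun_smul (c : ℂ) (A : OneF X) (x : X) (q : Qi) (z : C2) :
    cfun (c • A) x q z = c * cfun A x q z := by
  have : c • A = fmul (fun _ => c) A := oneF_ext fun x q => by rw [vv_smul, vv_fmul]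
  rw [this, cfun_fmul]

theorem cfun_zero (x : X) (q : Qi) (z : C2) : cfun (0 : OneF X) x q z = 0 := by
  have := cfun_smul (0 : ℂ) (0 : OneF X) x q z
  rw [zero_smul] at this
  rw [this, zero_mul]

theorem cfun_sub (A B : OneF X) (x : X) (q : Qi) (z : C2) :
    cfun (A - B) x q z = cfun A x q z - cfun B x q z := by
  have : A - B = A + (-1 : ℂ) • B := by rw [neg_one_smul, sub_eq_add_neg]
  rw [this, cfun_add, cfun_smul]
  ring

theorem cfun_sum {κ : Type*} (s : Finset κ) (A : κ → OneF X) (x : X) (q : Qi) (z : C2) :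
    cfun (∑ i ∈ s, A i) x q z = ∑ i ∈ s, cfun (A i) x q z := by
  classical
  induction s using Finset.induction_on with
  | empty => simp [cfun_zero]
  | insert a s ha ih => rw [Finset.sum_insert ha, Finset.sum_insert ha, cfun_add, ih]

end cfun

section Dq

variable {q : Qi} {g h : C2 → ℂ} {z : C2}

theorem Dq_congr (H : g =ᶠ[𝓝 z] h) : Dq q g z = Dq q h z := by
  unfold Dq
  rw [H.fderiv_eq]

theorem Dq_add (hg : DifferentiableAt ℝ g z) (hh : DifferentiableAt ℝ h z) :
    Dq q (fun w => g w + h w) z = Dq q g z + Dq q h z := by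
  unfold Dq
  rw [fderiv_fun_add hg hh, map_add]

theorem Dq_mul (hg : DifferentiableAt ℝ g z) (hh : DifferentiableAt ℝ h z) :
    Dq q (fun w => g w * h w) z = g z * Dq q h z + Dq q g z * h z := by
  unfold Dq
  rw [fderiv_fun_mul hg hh, map_add, map_smul, map_smul]
  simp only [smul_eq_mul]
  ring

theorem Dq_const (c : ℂ) : Dq q (fun _ => c) z = 0 := by
  unfold Dq
  simp

theorem Dq_const_mul (c : ℂ) (hg : DifferentiableAt ℝ g z) :
    Dq q (fun w => c * g w) z = c * Dq q g z := by
  rw [Dq_mul (differentiableAt_const c) hg, Dq_const]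
  ring

theorem Dq_sum {κ : Type*} {s : Finset κ} {f : κ → C2 → ℂ}
    (hf : ∀ i ∈ s, DifferentiableAt ℝ (f i) z) :
    Dq q (fun w => ∑ i ∈ s, f i w) z = ∑ i ∈ s, Dq q (f i) z := by
  unfold Dq
  rw [fderiv_fun_sum hf, map_sum]

theorem Dq_comm (hg : ContDiffAt ℝ 2 g z) (q q' : Qi) :
    Dq q (Dq q' g) z = Dq q' (Dq q g) z := by
  rcases q with i | i <;> rcases q' with j | j
  · exact dz_dz_comm hg i j
  · exact dz_dzb_comm hg i j
  · exact (dz_dzb_comm hg j i).symm
  · exact dzb_dzb_comm hg i j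

theorem Dq_contDiffAt (hg : ContDiffAt ℝ ∞ g z) (q : Qi) : ContDiffAt ℝ ∞ (Dq q g) z := by
  have h1 : ContDiffAt ℝ ∞ (fderiv ℝ g) z := hg.fderiv_right (by simp)
  rcases q with i | i
  · have e1 := h1.clm_apply (contDiffAt_const (c := (Pi.single i 1 : C2)))
    have e2 := h1.clm_apply (contDiffAt_const (c := (Pi.single i Complex.I : C2)))
    exact (contDiffAt_const (c := (1 / 2 : ℂ))).mul
      (e1.sub ((contDiffAt_const (c := Complex.I)).mul e2))
  · have e1 := h1.clm_apply (contDiffAt_const (c := (Pi.single i 1 : C2)))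
    have e2 := h1.clm_apply (contDiffAt_const (c := (Pi.single i Complex.I : C2)))
    exact (contDiffAt_const (c := (1 / 2 : ℂ))).mul
      (e1.add ((contDiffAt_const (c := Complex.I)).mul e2))

end Dq

section OAt

variable {A B : OneF X} {x : X}

theorem OAt.congr (hA : OAt A x) (h : ∀ᶠ y in 𝓝 x, ∀ q, vv B y q = vv A y q) : OAt B x :=
  fun q => (hA q).congr_of_eventuallyEq (cfun_congr h q)

theorem OAt.add (hA : OAt A x) (hB : OAt B x) : OAt (A + B) x := fun q => by
  have : cfun (A + B) x q = fun z => cfun A x q z + cfun B x q z := funext fun z => cfun_add A B x q z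
  rw [this]
  exact (hA q).add (hB q)

theorem OAt.fmul {f : X → ℂ} (hf : SmAt f x) (hA : OAt A x) : OAt (fmul f A) x := fun q => by
  have : cfun (H995.fmul f A) x q = fun z => f ((chartAt C2 x).symm z) * cfun A x q z :=
    funext fun z => cfun_fmul f A x q z
  rw [this]
  exact ContDiffAt.mul hf (hA q)

theorem OAt.zero : OAt (0 : OneF X) x := fun q => by
  have : cfun (0 : OneF X) x q = fun _ => 0 := funext fun z => cfun_zero x q z
  rw [this]
  exact contDiffAt_const

theorem OAt.smul (c : ℂ) (hA : OAt A x) : OAt (c • A) x := by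
  have : c • A = H995.fmul (fun _ => c) A := oneF_ext fun x q => by rw [vv_smul, vv_fmul]
  rw [this]
  exact OAt.fmul (SmAt.const c x) hA

theorem OAt.neg (hA : OAt A x) : OAt (-A) x := by
  have : -A = (-1 : ℂ) • A := by rw [neg_one_smul]
  rw [this]
  exact hA.smul _

theorem OAt.sub (hA : OAt A x) (hB : OAt B x) : OAt (A - B) x := by
  rw [sub_eq_add_neg]
  exact hA.add hB.neg

theorem OAt.sum {κ : Type*} {s : Finset κ} {A : κ → OneF X} (h : ∀ i ∈ s, OAt (A i) x) :
    OAt (∑ i ∈ s, A i) x := by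
  classical
  induction s using Finset.induction_on with
  | empty => simpa using OAt.zero
  | insert a s ha ih =>
    rw [Finset.sum_insert ha]
    exact (h a (Finset.mem_insert_self a s)).add
      (ih fun i hi => h i (Finset.mem_insert_of_mem hi))

theorem OAt.diff (hA : OAt A x) (q : Qi) : DifferentiableAt ℝ (cfun A x q) (chartAt C2 x x) :=
  (hA q).differentiableAt (by simp)

end OAt

section pr_d

variable {A B : OneF X} {x : X}

theorem pr_d_congr (h : ∀ᶠ y in 𝓝 x, ∀ q, vv A y q = vv B y q) (q q' : Qi) :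
    pr A.d x q q' = pr B.d x q q' := by
  rw [pr_d, pr_d, Dq_congr (cfun_congr h q'), Dq_congr (cfun_congr h q)]

theorem pr_d_add (hA : OAt A x) (hB : OAt B x) (q q' : Qi) :
    pr (A + B).d x q q' = pr A.d x q q' + pr B.d x q q' := by
  have : ∀ q, cfun (A + B) x q = fun z => cfun A x q z + cfun B x q z :=
    fun q => funext fun z => cfun_add A B x q z
  rw [pr_d, pr_d, pr_d, this, this, Dq_add (hA.diff q') (hB.diff q'),
    Dq_add (hA.diff q) (hB.diff q)]
  ring

theorem pr_d_zero (q q' : Qi) : pr (0 : OneF X).d x q q' = 0 := by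
  have : ∀ q, cfun (0 : OneF X) x q = fun _ => 0 := fun q => funext fun z => cfun_zero x q z
  rw [pr_d, this, this, Dq_const, Dq_const, sub_zero]

theorem pr_d_sum {κ : Type*} {s : Finset κ} {A : κ → OneF X} (h : ∀ i ∈ s, OAt (A i) x)
    (q q' : Qi) : pr (∑ i ∈ s, A i).d x q q' = ∑ i ∈ s, pr (A i).d x q q' := by
  classical
  induction s using Finset.induction_on with
  | empty => simp [pr_d_zero]
  | insert a s ha ih =>
    rw [Finset.sum_insert ha, Finset.sum_insert ha,
      pr_d_add (h a (Finset.mem_insert_self a s))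
        (OAt.sum fun i hi => h i (Finset.mem_insert_of_mem hi)),
      ih fun i hi => h i (Finset.mem_insert_of_mem hi)]

end pr_d

section manifold

variable [IsManifold 𝓘(ℂ, C2) ω X] {A B : OneF X} {x : X}

theorem pr_d_fmul {f : X → ℂ} (hf : SmAt f x) (hA : OAt A x) (q q' : Qi) :
    pr (fmul f A).d x q q' = DT (tq q) x f * vv A x q' - DT (tq q') x f * vv A x q +
      f x * pr A.d x q q' := by
  have : ∀ q, cfun (fmul f A) x q = fun z => f ((chartAt C2 x).symm z) * cfun A x q z :=
    fun q => funext fun z => cfun_fmul f A x q z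
  have hd : DifferentiableAt ℝ (fun z => f ((chartAt C2 x).symm z)) (chartAt C2 x x) := hf.dat
  rw [pr_d, pr_d, this, this, Dq_mul hd (hA.diff q'), Dq_mul hd (hA.diff q),
    (chartAt C2 x).left_inv (mem_chart_source C2 x), cfun_self, cfun_self]
  change f x * _ + DT (tq q) x f * vv A x q' - (f x * _ + DT (tq q') x f * vv A x q) = _
  ring

theorem pr_d_smul (c : ℂ) (hA : OAt A x) (q q' : Qi) :
    pr (c • A).d x q q' = c * pr A.d x q q' := by
  have : c • A = fmul (fun _ => c) A := oneF_ext fun x q => by rw [vv_smul, vv_fmul]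
  rw [this, pr_d_fmul (SmAt.const c x) hA, DT_const, DT_const]
  ring

theorem pr_d_sub (hA : OAt A x) (hB : OAt B x) (q q' : Qi) :
    pr (A - B).d x q q' = pr A.d x q q' - pr B.d x q q' := by
  have : A - B = A + (-1 : ℂ) • B := by rw [neg_one_smul, sub_eq_add_neg]
  rw [this, pr_d_add hA (hB.smul _), pr_d_smul _ hB]
  ring

theorem OAt_dF0 {s : X → ℂ} (hs : SmAt s x) : OAt (dF0 s) x := fun q =>
  (Dq_contDiffAt hs q).congr_of_eventuallyEq (cfun_dF0 hs q)

theorem pr_d_dF0 {s : X → ℂ} (hs : SmAt s x) (q q' : Qi) : pr (dF0 s).d x q q' = 0 := by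
  have h2 : ContDiffAt ℝ 2 (fun z => s ((chartAt C2 x).symm z)) (chartAt C2 x x) :=
    ContDiffAt.of_le hs (by norm_cast)
  rw [pr_d, Dq_congr (cfun_dF0 hs q'), Dq_congr (cfun_dF0 hs q), Dq_comm h2 q q', sub_self]

/-- `d (f ds) = df ∧ ds` -/
theorem pr_d_fds {f s : X → ℂ} (hf : SmAt f x) (hs : SmAt s x) (q q' : Qi) :
    pr (fmul f (dF0 s)).d x q q' =
      DT (tq q) x f * DT (tq q') x s - DT (tq q') x f * DT (tq q) x s := by
  rw [pr_d_fmul hf (OAt_dF0 hs), pr_d_dF0 hs, vv_dF0, vv_dF0]
  ring

end manifold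

end Vale.Agent.P267.H995
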