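import Vale.Agent.P267.H995.Conv

/-!
# P267, UNI-LB (2): existence of logarithms and of the integral cocycle
-/

set_option linter.unusedSectionVars false

open scoped Manifold ContDiff ComplexConjugate Matrix ComplexOrder
open Set Filter Topology

noncomputable section

namespace Vale.Agent.P267.H995

open Vale.Agent.P267.FL

variable {X : Type*} [TopologicalSpace X] [ChartedSpace C2 X]

/-- smooth logarithms on open simply connected sets -/
theorem exists_log {W : Set X} (hW : IsOpen W) (hsc : IsSimplyConnected W) {f : X → ℂ}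
    (hf : ∀ x ∈ W, SmAt f x) (h0 : ∀ x ∈ W, f x ≠ 0) :
    ∃ l : X → ℂ, (∀ x ∈ W, SmAt l x) ∧ ∀ x ∈ W, Complex.exp (l x) = f x := by
  have : LocallyPathConnectedSpace X := ChartedSpace.locallyPathConnectedSpace C2 X
  obtain ⟨l, hl, he⟩ := Complex.exists_continuousOn_eqOn_exp_comp hsc hW (g := f)
    (fun x hx => (hf x hx).continuousAt.continuousWithinAt)
    (by rintro ⟨x, hx, h⟩; exact h0 x hx h)
  have he' : ∀ x ∈ W, Complex.exp (l x) = f x := fun x hx => he hx
  refine ⟨l, fun x hx => ?_, he'⟩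
  have hlc : ContinuousAt l x := (hl x hx).continuousAt (hW.mem_nhds hx)
  -- near `x`, `l = l x + log (f / f x)`
  have h1 : ∀ᶠ y in 𝓝 x, |(l y - l x).im| < Real.pi := by
    have h2 : ContinuousAt (fun y => |(l y - l x).im|) x :=
      ((Complex.continuous_im.continuousAt.comp (hlc.sub continuousAt_const))).abs
    have h3 : |(l x - l x).im| < Real.pi := by simp [Real.pi_pos]
    exact h2.eventually (gt_mem_nhds h3)
  have h4 : l =ᶠ[𝓝 x] fun y => l x + Complex.log (f y * (f x)⁻¹) := by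
    filter_upwards [h1, hW.mem_nhds hx] with y hy hyW
    have h5 : Complex.exp (l y - l x) = f y * (f x)⁻¹ := by
      rw [Complex.exp_sub, he' y hyW, he' x hx, div_eq_mul_inv]
    rw [← h5, Complex.log_exp (abs_lt.1 hy).1 (abs_lt.1 hy).2.le]
    ring
  refine SmAt.congr ?_ h4
  refine (SmAt.const _ _).add ?_
  refine SmAt.comp (F := Complex.log) ((hf x hx).mul (SmAt.const _ _)) ?_
  rw [mul_inv_cancel₀ (h0 x hx)]
  exact (Complex.contDiffAt_log (by simp)).restrict_scalars ℝ

/-- a continuous function with integral values on a preconnected set is constant -/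
theorem exists_int_of_preconnected {W : Set X} (hW : IsPreconnected W) {w : X → ℂ}
    (hw : ContinuousOn w W) (hi : ∀ x ∈ W, ∃ n : ℤ, w x = n) : ∃ n : ℤ, ∀ x ∈ W, w x = n := by
  rcases W.eq_empty_or_nonempty with rfl | ⟨x₀, hx₀⟩
  · exact ⟨0, by simp⟩
  obtain ⟨n, hn⟩ := hi x₀ hx₀
  refine ⟨n, fun x hx => ?_⟩
  rw [← hn]
  have h1 : ContinuousOn (fun y => (w y).re) W := Complex.continuous_re.comp_continuousOn hw
  -- use integral parts
  have h2 : ∀ y ∈ W, ∃ m : ℤ, (w y).re = m := fun y hy => by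
    obtain ⟨m, hm⟩ := hi y hy
    exact ⟨m, by rw [hm]; simp⟩
  have h3 : (w x).re = (w x₀).re := by
    have hT : IsDiscrete (Set.range ((↑) : ℤ → ℝ)) :=
      Int.isClosedEmbedding_coe_real.isInducing.isDiscrete_range
    refine hW.constant_of_mapsTo hT h1 ?_ hx hx₀
    intro y hy
    obtain ⟨m, hm⟩ := h2 y hy
    exact ⟨m, hm.symm⟩
  obtain ⟨m, hm⟩ := hi x hx
  rw [hm, hn]
  rw [hm, hn] at h3
  simp at h3
  rw [h3]

variable {ι : Type*} {κ : Type*} [Fintype κ] [DecidableEq κ]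

/-- **Existence of the logarithms and of the integral cocycle.** -/
theorem exists_logData {P : X → Matrix κ κ ℂ} {U : ι → Set X} (Fr : DFrames P U)
    (hU : ∀ a, IsOpen (U a)) (h2 : ∀ a b, (U a ∩ U b).Nonempty → IsSimplyConnected (U a ∩ U b))
    (h3 : ∀ a b c, IsPreconnected (U a ∩ U b ∩ U c)) : Nonempty (LogData Fr) := by
  classical
  have hl : ∀ a b, ∃ l : X → ℂ, (∀ x ∈ U a ∩ U b, SmAt l x) ∧
      ∀ x ∈ U a ∩ U b, Complex.exp (l x) = Fr.lam a b x := by
    intro a b
    rcases (U a ∩ U b).eq_empty_or_nonempty with h | h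
    · refine ⟨fun _ => 0, ?_, ?_⟩ <;> · rw [h]; simp
    · exact exists_log ((hU a).inter (hU b)) (h2 a b h)
        (fun x hx => DFrames.sm_lam hx.1 hx.2) (fun x hx => DFrames.lam_ne hx.1 hx.2)
  choose l hl1 hl2 using hl
  have hpi : (2 * Real.pi * Complex.I : ℂ) ≠ 0 := by simp [Real.pi_ne_zero]
  have hn : ∀ a b c, ∃ n : ℤ, ∀ x ∈ U a ∩ U b ∩ U c,
      (l a b x + l b c x - l a c x) / (2 * Real.pi * Complex.I) = n := by
    intro a b c
    refine exists_int_of_preconnected (h3 a b c) ?_ ?_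
    · intro x hx
      have e1 := (hl1 a b x ⟨hx.1.1, hx.1.2⟩).continuousAt
      have e2 := (hl1 b c x ⟨hx.1.2, hx.2⟩).continuousAt
      have e3 := (hl1 a c x ⟨hx.1.1, hx.2⟩).continuousAt
      exact (((e1.add e2).sub e3).div_const _).continuousWithinAt
    · intro x hx
      have e1 : Complex.exp (l a b x + l b c x - l a c x) = 1 := by
        rw [Complex.exp_sub, Complex.exp_add, hl2 a b x ⟨hx.1.1, hx.1.2⟩,
          hl2 b c x ⟨hx.1.2, hx.2⟩, hl2 a c x ⟨hx.1.1, hx.2⟩, DFrames.lam_coc hx.1.1 hx.1.2]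
        exact div_self (DFrames.lam_ne hx.1.1 hx.2)
      obtain ⟨n, hn⟩ := Complex.exp_eq_one_iff.1 e1
      exact ⟨n, by rw [hn]; field_simp⟩
  choose n hn using hn
  refine ⟨⟨l, n, fun a b x ha hb => hl1 a b x ⟨ha, hb⟩, fun a b x ha hb => hl2 a b x ⟨ha, hb⟩,
    fun a b c x ha hb hc => ?_⟩⟩
  have := hn a b c x ⟨⟨ha, hb⟩, hc⟩
  rw [div_eq_iff hpi] at this
  rw [this]
  ring

/-- a rank one orthogonal projector is `w w* / |w|²` for every nonzero vector `w` in its range -/
theorem proj_eq {P : Matrix κ κ ℂ} (hH : Pᴴ = P) (hI : P * P = P) (hT : P.trace = 1) {w : κ → ℂ}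
    (hw : P.mulVec w = w) (hne : w ≠ 0) (i j : κ) :
    P i j = w i * ((star w ⬝ᵥ w)⁻¹ * star (w j)) := by
  have h0 : star w ⬝ᵥ w ≠ 0 := by
    intro h
    exact hne (dotProduct_star_self_eq_zero.1 h)
  set c : ℂ := (star w ⬝ᵥ w)⁻¹ with hc
  have hcs : star c = c := by
    rw [hc, star_inv₀, ← Matrix.star_dotProduct]
  let Q : Matrix κ κ ℂ := c • Matrix.vecMulVec w (star w)
  have hPQ : P * Q = Q := by
    change P * (c • Matrix.vecMulVec w (star w)) = _
    rw [Matrix.mul_smul, Matrix.mul_vecMulVec, hw]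
  have hQH : Qᴴ = Q := by
    change (c • Matrix.vecMulVec w (star w))ᴴ = _
    rw [Matrix.conjTranspose_smul, hcs, Matrix.conjTranspose_vecMulVec, star_star]
  have hQP : Q * P = Q := by
    have := congrArg Matrix.conjTranspose hPQ
    rw [Matrix.conjTranspose_mul, hQH, hH] at this
    exact this
  have hQQ : Q * Q = Q := by
    change (c • Matrix.vecMulVec w (star w)) * (c • Matrix.vecMulVec w (star w)) = _
    rw [Matrix.smul_mul, Matrix.mul_smul, Matrix.vecMulVec_mul_vecMulVec, Matrix.vecMulVec_smul,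
      smul_smul, smul_smul, mul_assoc, hc, inv_mul_cancel₀ h0, mul_one]
  have hQT : Q.trace = 1 := by
    change (c • Matrix.vecMulVec w (star w)).trace = 1
    rw [Matrix.trace_smul, Matrix.trace_vecMulVec, dotProduct_comm, smul_eq_mul, hc,
      inv_mul_cancel₀ h0]
  have hR : (P - Q)ᴴ * (P - Q) = P - Q := by
    rw [Matrix.conjTranspose_sub, hH, hQH, sub_mul, mul_sub, mul_sub, hI, hPQ, hQP, hQQ]
    abel
  have hR0 : P - Q = 0 := by
    have : ((P - Q)ᴴ * (P - Q)).trace = 0 := by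
      rw [hR, Matrix.trace_sub, hT, hQT, sub_self]
    exact Matrix.trace_conjTranspose_mul_self_eq_zero_iff.1 this
  have : P = Q := sub_eq_zero.1 hR0
  rw [this]
  change c * (w i * star (w j)) = _
  ring

section frames

/-- frames from nowhere vanishing smooth sections -/
def DFrames.ofSec {κ : Type} [Fintype κ] [DecidableEq κ] (L : LB X κ) (U : ι → Set X)
    (w : ι → κ → X → ℂ)
    (hs : ∀ a k x, x ∈ U a → SmAt (w a k) x)
    (hP : ∀ a x, x ∈ U a → (L.P x).mulVec (fun k => w a k x) = fun k => w a k x)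
    (hne : ∀ a x, x ∈ U a → (fun k => w a k x) ≠ 0) : DFrames L.P U where
  u := w
  v a k x := ((star fun j => w a j x) ⬝ᵥ fun j => w a j x)⁻¹ * star (w a k x)
  smu := hs
  smv a k x hx := by
    have h0 : (star fun j => w a j x) ⬝ᵥ (fun j => w a j x) ≠ 0 := by
      intro h
      exact hne a x hx (dotProduct_star_self_eq_zero.1 h)
    have h1 : SmAt (fun y => (star fun j => w a j y) ⬝ᵥ fun j => w a j y) x :=
      SmAt.sum fun j _ => (hs a j x hx).conj.mul (hs a j x hx)
    have h2 : ContDiffAt ℝ ∞ (fun t : ℂ => t⁻¹)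
        ((star fun j => w a j x) ⬝ᵥ fun j => w a j x) := contDiffAt_inv ℝ h0
    exact (SmAt.comp (F := fun t : ℂ => t⁻¹) h1 h2).mul (hs a k x hx).conj
  eq a x hx i j := proj_eq (L.herm x) (L.idem x) (L.tr x) (hP a x hx) (hne a x hx) i j
  one a x hx := by
    have h0 : (star fun j => w a j x) ⬝ᵥ (fun j => w a j x) ≠ 0 := by
      intro h
      exact hne a x hx (dotProduct_star_self_eq_zero.1 h)
    simp only [mul_assoc]
    rw [← Finset.mul_sum]
    exact inv_mul_cancel₀ h0

end frames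

/-- **zigzag of the curvature**, from nowhere vanishing sections on the sets `U_a` -/
theorem exists_zig_of_sec [IsManifold 𝓘(ℂ, C2) ω X] {κ : Type} [Fintype κ] [DecidableEq κ]
    (L : LB X κ) {U : ι → Set X} (hU : ∀ a, IsOpen (U a))
    (h2 : ∀ a b, (U a ∩ U b).Nonempty → IsSimplyConnected (U a ∩ U b))
    (h3 : ∀ a b c, IsPreconnected (U a ∩ U b ∩ U c))
    (hw : ∀ a, ∃ w : κ → X → ℂ, (∀ k, ∀ x ∈ U a, SmAt (w k) x) ∧
      ∀ x ∈ U a, (L.P x).mulVec (fun k => w k x) = (fun k => w k x) ∧ (fun k => w k x) ≠ 0) :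
    ∃ (Z : Zig U L.curv) (n : ι → ι → ι → ℤ), IsCoc U n ∧
      Z.r = fun a b c => 2 * Real.pi * Complex.I * n a b c := by
  choose w hw1 hw2 using hw
  let Fr : DFrames L.P U := DFrames.ofSec L U w (fun a k x hx => hw1 a k x hx)
    (fun a x hx => (hw2 a x hx).1) (fun a x hx => (hw2 a x hx).2)
  obtain ⟨LD⟩ := exists_logData Fr hU h2 h3
  exact ⟨LD.zig hU, LD.n, LD.isCoc, rfl⟩

end Vale.Agent.P267.H995
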