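import Vale.Agent.P267.H757.NF2

/-!
# P267 (helper995): orders of vanishing of norm functions along curves
-/

set_option linter.unusedSectionVars false

open scoped Manifold ContDiff Topology
open Set Filter

noncomputable section

namespace Vale.Agent.P267.H995

open Vale.Agent.P267.H757

/-- `u` vanishes to order exactly `2m` at `t₀` -/
def HasOrd (u : ℂ → ℝ) (t₀ : ℂ) (m : ℕ) : Prop :=
  ∃ h : ℂ → ℝ, ContinuousAt h t₀ ∧ 0 < h t₀ ∧ ∀ᶠ t in 𝓝 t₀, u t = ‖t - t₀‖ ^ (2 * m) * h t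

section one

variable {u v w : ℂ → ℝ} {t₀ : ℂ} {m : ℕ}

theorem hasOrd_zero (hu : ContinuousAt u t₀) (h0 : 0 < u t₀) : HasOrd u t₀ 0 :=
  ⟨u, hu, h0, Eventually.of_forall fun t => by simp⟩

theorem HasOrd.congr (h : HasOrd u t₀ m) (huv : u =ᶠ[𝓝 t₀] v) : HasOrd v t₀ m := by
  obtain ⟨k, h1, h2, h3⟩ := h
  exact ⟨k, h1, h2, by filter_upwards [h3, huv] with t ht ht'; rw [← ht', ht]⟩

/-- a factor of order zero can be divided out -/
theorem HasOrd.of_mul (h : HasOrd u t₀ m) (huv : ∀ᶠ t in 𝓝 t₀, u t = v t * w t)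
    (hw : ContinuousAt w t₀) (h0 : 0 < w t₀) : HasOrd v t₀ m := by
  obtain ⟨k, h1, h2, h3⟩ := h
  refine ⟨fun t => k t / w t, h1.div hw h0.ne', div_pos h2 h0, ?_⟩
  filter_upwards [h3, huv, hw.eventually (lt_mem_nhds h0)] with t ht ht' hp
  have hp' : w t ≠ 0 := ne_of_gt hp
  have : v t * w t = ‖t - t₀‖ ^ (2 * m) * k t := by rw [← ht', ht]
  field_simp
  exact this

/-- the other factor does not vanish -/
theorem HasOrd.ne_zero (h : HasOrd u t₀ m) (hv : HasOrd v t₀ m)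
    (huv : ∀ᶠ t in 𝓝 t₀, u t = v t * w t) (hw : ContinuousAt w t₀) : w t₀ ≠ 0 := by
  obtain ⟨k, h1, h2, h3⟩ := h
  obtain ⟨l, h4, h5, h6⟩ := hv
  have h7 : ∀ᶠ t in 𝓝[≠] t₀, k t = l t * w t := by
    filter_upwards [h3.filter_mono nhdsWithin_le_nhds, huv.filter_mono nhdsWithin_le_nhds,
      h6.filter_mono nhdsWithin_le_nhds, self_mem_nhdsWithin] with t e1 e2 e3 e4
    have h8 : ‖t - t₀‖ ^ (2 * m) ≠ 0 := pow_ne_zero _ (norm_ne_zero_iff.2 (sub_ne_zero.2 e4))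
    have h9 : ‖t - t₀‖ ^ (2 * m) * k t = ‖t - t₀‖ ^ (2 * m) * (l t * w t) := by
      rw [← e1, e2, e3]; ring
    exact mul_left_cancel₀ h8 h9
  have h10 : Tendsto k (𝓝[≠] t₀) (𝓝 (k t₀)) := h1.tendsto.mono_left nhdsWithin_le_nhds
  have h11 : Tendsto (fun t => l t * w t) (𝓝[≠] t₀) (𝓝 (l t₀ * w t₀)) :=
    (h4.mul hw).tendsto.mono_left nhdsWithin_le_nhds
  have h12 := tendsto_nhds_unique (h10.congr' h7) h11
  intro h0
  rw [h0, mul_zero] at h12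
  exact h2.ne' h12

/-- order one and the derivative of a local equation -/
theorem hasOrd_one_iff_deriv {G : ℂ → ℂ} {D : ℂ} (hG : HasDerivAt G D t₀) (h0 : G t₀ = 0)
    {ψ : ℂ → ℝ} (hψ : ContinuousAt ψ t₀)
    (hu : ∀ᶠ t in 𝓝 t₀, u t = ‖G t‖ ^ 2 * Real.exp (-ψ t)) : HasOrd u t₀ 1 ↔ D ≠ 0 := by
  have hs : Tendsto (fun t => ‖G t‖ / ‖t - t₀‖) (𝓝[≠] t₀) (𝓝 ‖D‖) := by
    have h1 := (hasDerivAt_iff_tendsto_slope.1 hG).norm
    refine h1.congr' ?_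
    filter_upwards with t
    rw [slope_def_field, h0, sub_zero, norm_div]
  have hs2 : Tendsto (fun t => (‖G t‖ / ‖t - t₀‖) ^ 2 * Real.exp (-ψ t)) (𝓝[≠] t₀)
      (𝓝 (‖D‖ ^ 2 * Real.exp (-ψ t₀))) :=
    (hs.pow 2).mul ((Real.continuous_exp.continuousAt.comp hψ.neg).tendsto.mono_left
      nhdsWithin_le_nhds)
  constructor
  · rintro ⟨k, h1, h2, h3⟩ hD
    rw [hD, norm_zero, zero_pow two_ne_zero, zero_mul] at hs2
    have h4 : Tendsto k (𝓝[≠] t₀) (𝓝 (k t₀)) := h1.tendsto.mono_left nhdsWithin_le_nhds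
    have h5 : (fun t => (‖G t‖ / ‖t - t₀‖) ^ 2 * Real.exp (-ψ t)) =ᶠ[𝓝[≠] t₀] k := by
      filter_upwards [h3.filter_mono nhdsWithin_le_nhds, hu.filter_mono nhdsWithin_le_nhds,
        self_mem_nhdsWithin] with t e1 e2 e3
      have h8 : ‖t - t₀‖ ≠ 0 := norm_ne_zero_iff.2 (sub_ne_zero.2 e3)
      have h9 : ‖t - t₀‖ ^ 2 * k t = ‖G t‖ ^ 2 * Real.exp (-ψ t) := by
        rw [← e2, e1]
      rw [div_pow]
      field_simp
      rw [← h9]
    have h6 := tendsto_nhds_unique (hs2.congr' h5) h4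
    exact h2.ne h6
  · intro hD
    classical
    refine ⟨Function.update (fun t => (‖G t‖ / ‖t - t₀‖) ^ 2 * Real.exp (-ψ t)) t₀
      (‖D‖ ^ 2 * Real.exp (-ψ t₀)), ?_, ?_, ?_⟩
    · rw [continuousAt_update_same]
      exact hs2
    · rw [Function.update_self]
      have : 0 < ‖D‖ := norm_pos_iff.2 hD
      positivity
    · filter_upwards [hu] with t ht
      by_cases htt : t = t₀
      · subst htt
        rw [ht, h0]
        simp
      · rw [Function.update_of_ne htt, ht, div_pow]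
        have h8 : ‖t - t₀‖ ≠ 0 := norm_ne_zero_iff.2 (sub_ne_zero.2 htt)
        field_simp

end one

section mfd

variable {E : Type*} [NormedAddCommGroup E] [NormedSpace ℂ E]
variable {M : Type*} [TopologicalSpace M] [ChartedSpace E M]
variable {N N' : M → ℝ} {U U' : Set M} {g g' : M → ℂ} {φ φ' : M → ℝ} {c : ℂ → M} {t₀ : ℂ}

theorem continuousAt_phi (h : LocRep E N U g φ) {p : M} (hp : p ∈ U) : ContinuousAt φ p :=
  h.smooth.continuousOn.continuousAt (h.isOpen.mem_nhds hp)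

theorem mdiffAt_g (h : LocRep E N U g φ) {p : M} (hp : p ∈ U) :
    MDifferentiableAt 𝓘(ℂ, E) 𝓘(ℂ) g p :=
  (h.hol p hp).mdifferentiableAt (h.isOpen.mem_nhds hp)

theorem hasDerivAt_of_fderiv {f : ℂ → ℂ} {L : ℂ →L[ℂ] ℂ} (h : HasFDerivAt f L t₀) :
    HasDerivAt f (L 1) t₀ := h.hasDerivAt

theorem hasDerivAt_comp {g : M → ℂ} (hg : MDifferentiableAt 𝓘(ℂ, E) 𝓘(ℂ) g (c t₀))
    (hc : MDifferentiableAt 𝓘(ℂ) 𝓘(ℂ, E) c t₀) :
    HasDerivAt (fun t => g (c t))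
      (mfderiv 𝓘(ℂ, E) 𝓘(ℂ) g (c t₀) (mfderiv 𝓘(ℂ) 𝓘(ℂ, E) c t₀ (1 : ℂ))) t₀ := by
  have h1 := hg.hasMFDerivAt.comp t₀ hc.hasMFDerivAt
  exact hasDerivAt_of_fderiv h1.hasFDerivAt

/-- order one along a curve and the differential of a local equation -/
theorem hasOrd_one_iff (h : LocRep E N U g φ) (hc : MDifferentiableAt 𝓘(ℂ) 𝓘(ℂ, E) c t₀)
    (hp : c t₀ ∈ U) (h0 : N (c t₀) = 0) :
    HasOrd (fun t => N (c t)) t₀ 1 ↔
      mfderiv 𝓘(ℂ, E) 𝓘(ℂ) g (c t₀) (mfderiv 𝓘(ℂ) 𝓘(ℂ, E) c t₀ (1 : ℂ)) ≠ 0 := by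
  refine hasOrd_one_iff_deriv (hasDerivAt_comp (mdiffAt_g h hp) hc) ((h.eq_zero_iff hp).1 h0)
    (ψ := fun t => φ (c t)) ((continuousAt_phi h hp).comp hc.continuousAt) ?_
  filter_upwards [hc.continuousAt.eventually (h.isOpen.mem_nhds hp)] with t ht
  exact h.eq _ ht

/-- a norm function which vanishes along the curve -/
theorem mfderiv_apply_eq_zero (h : LocRep E N U g φ) (hc : MDifferentiableAt 𝓘(ℂ) 𝓘(ℂ, E) c t₀)
    (hp : c t₀ ∈ U) (h0 : ∀ t, N (c t) = 0) :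
    mfderiv 𝓘(ℂ, E) 𝓘(ℂ) g (c t₀) (mfderiv 𝓘(ℂ) 𝓘(ℂ, E) c t₀ (1 : ℂ)) = 0 := by
  have h1 := hasDerivAt_comp (mdiffAt_g h hp) hc
  have h2 : (fun t => g (c t)) =ᶠ[𝓝 t₀] fun _ => 0 := by
    filter_upwards [hc.continuousAt.eventually (h.isOpen.mem_nhds hp)] with t ht
    exact (h.eq_zero_iff ht).1 (h0 t)
  have h3 := (hasDerivAt_const t₀ (0 : ℂ)).congr_of_eventuallyEq h2
  exact h1.unique h3

/-- non-vanishing of the differential does not depend on the local representation -/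
theorem mfderiv_ne_zero_of [IsManifold 𝓘(ℂ, E) ω M] (h : LocRep E N U g φ)
    (h' : LocRep E N U' g' φ') {p : M} (hp : p ∈ U) (hp' : p ∈ U') (h0 : N p = 0)
    (hd : mfderiv 𝓘(ℂ, E) 𝓘(ℂ) g p ≠ 0) : mfderiv 𝓘(ℂ, E) 𝓘(ℂ) g' p ≠ 0 := by
  have : IsManifold 𝓘(ℂ, E) 1 M := IsManifold.of_le (n := ω) le_top
  set e := chartAt E p with he
  obtain ⟨v, hv⟩ : ∃ v, mfderiv 𝓘(ℂ, E) 𝓘(ℂ) g p v ≠ 0 := by
    by_contra hcon
    push Not at hcon
    exact hd (ContinuousLinearMap.ext hcon)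
  -- the coordinate line in the direction of `v`
  set v' : E := mfderiv 𝓘(ℂ, E) 𝓘(ℂ, E) e p v with hv'
  set c : ℂ → M := fun t => e.symm (e p + t • v') with hc
  have hpe : p ∈ e.source := mem_chart_source E p
  have hsymm : MDifferentiableAt 𝓘(ℂ, E) 𝓘(ℂ, E) e.symm (e p) :=
    mdifferentiableAt_atlas_symm (chart_mem_atlas E p) (mem_chart_target E p)
  have hem : MDifferentiableAt 𝓘(ℂ, E) 𝓘(ℂ, E) e p :=
    mdifferentiableAt_atlas (chart_mem_atlas E p) hpe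
  have hc0 : c 0 = p := by
    simp only [hc, zero_smul, add_zero]
    exact e.left_inv hpe
  have hl : HasFDerivAt (fun t : ℂ => e p + t • v')
      ((ContinuousLinearMap.id ℂ ℂ).smulRight v') 0 :=
    ((hasFDerivAt_id (0 : ℂ)).smul_const v').const_add _
  have hl' : HasMFDerivAt 𝓘(ℂ) 𝓘(ℂ, E) (fun t : ℂ => e p + t • v') 0
      ((ContinuousLinearMap.id ℂ ℂ).smulRight v') := hl.hasMFDerivAt
  have hsymm' : HasMFDerivAt 𝓘(ℂ, E) 𝓘(ℂ, E) e.symm ((fun t : ℂ => e p + t • v') 0)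
      (mfderiv 𝓘(ℂ, E) 𝓘(ℂ, E) e.symm (e p)) := by
    have : (fun t : ℂ => e p + t • v') 0 = e p := by simp
    rw [this]
    exact hsymm.hasMFDerivAt
  have hcm : HasMFDerivAt 𝓘(ℂ) 𝓘(ℂ, E) c 0 ((mfderiv 𝓘(ℂ, E) 𝓘(ℂ, E) e.symm (e p)).comp
      ((ContinuousLinearMap.id ℂ ℂ).smulRight v')) := hsymm'.comp 0 hl'
  have hc1 : mfderiv 𝓘(ℂ) 𝓘(ℂ, E) c 0 (1 : ℂ) = v := by
    have h1 : mfderiv 𝓘(ℂ) 𝓘(ℂ, E) c 0 (1 : ℂ) =
        mfderiv 𝓘(ℂ, E) 𝓘(ℂ, E) e.symm (e p) v' := by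
      rw [hcm.mfderiv]
      have h6 : ((ContinuousLinearMap.id ℂ ℂ).smulRight v' : ℂ →L[ℂ] E) (1 : ℂ) = v' := by simp
      exact congrArg (mfderiv 𝓘(ℂ, E) 𝓘(ℂ, E) e.symm (e p)) h6
    rw [h1, hv']
    have h2 := hsymm.hasMFDerivAt.comp p hem.hasMFDerivAt
    have h3 : (e.symm ∘ e) =ᶠ[𝓝 p] id := by
      filter_upwards [e.open_source.mem_nhds hpe] with x hx
      exact e.left_inv hx
    have h4 := h2.congr_of_eventuallyEq h3.symm
    have h5 := hasMFDerivAt_unique h4 (hasMFDerivAt_id p)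
    exact DFunLike.congr_fun h5 v
  have hcd : MDifferentiableAt 𝓘(ℂ) 𝓘(ℂ, E) c 0 := hcm.mdifferentiableAt
  have key : HasOrd (fun t => N (c t)) 0 1 := by
    rw [hasOrd_one_iff h hcd (by rwa [hc0]) (by rwa [hc0]), hc1, hc0]
    exact hv
  rw [hasOrd_one_iff h' hcd (by rwa [hc0]) (by rwa [hc0]), hc1, hc0] at key
  intro h0
  rw [h0] at key
  exact key rfl

end mfd

end Vale.Agent.P267.H995
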