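import Vale.Agent.P267.H399.Calc
import Vale.Agent.P267.H857.Alg
import Vale.Agent.P267.H995.Mat

/-!
# P267, UNI-LB: components of forms, partitions of unity, the forms `W(r)`

* `Qi = Fin 2 ⊕ Fin 2`: indices of the basic directions `∂_0, ∂_1, ∂̄_0, ∂̄_1`, `tq q` the functionals.
* `pr F x q q'`: the (antisymmetric) components of a two-form, `vv A x q` the components of a
  one-form, `cfun A x q` the component functions in the preferred chart at `x`.
* `Part X ι`: finite smooth partition of unity `ρ_a` subordinate to open sets `U_a`.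
* `S.W r = ∑ r_abc ρ_a dρ_b ∧ dρ_c`.
-/

set_option linter.unusedSectionVars false

open scoped Manifold ContDiff ComplexConjugate Matrix
open Set Filter Topology

noncomputable section

namespace Vale.Agent.P267.H995

open Vale.Agent.P267.FL

/-- indices of the basic directions -/
abbrev Qi := Fin 2 ⊕ Fin 2

/-- the functionals of the basic directions -/
def tq : Qi → ((C2 →L[ℝ] ℂ) →ₗ[ℂ] ℂ)
  | Sum.inl i => tz i
  | Sum.inr i => tb i

/-- sign of a pair of indices -/
def sg (i j : Fin 2) : ℂ := if i = j then 0 else if i = 0 then 1 else -1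

@[simp] theorem sg_self (i : Fin 2) : sg i i = 0 := by simp [sg]
@[simp] theorem sg01 : sg 0 1 = 1 := by simp [sg]
@[simp] theorem sg10 : sg 1 0 = -1 := by simp [sg]

/-- derivative in a basic direction -/
def Dq (q : Qi) (h : C2 → ℂ) (z : C2) : ℂ := tq q (fderiv ℝ h z)

section comps

variable {X : Type*}

/-- components of a two-form -/
def pr (F : TwoF X) (x : X) : Qi → Qi → ℂ
  | Sum.inl i, Sum.inl j => sg i j * F.f20 x
  | Sum.inl i, Sum.inr j => F.f11 x i j
  | Sum.inr i, Sum.inl j => -F.f11 x j i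
  | Sum.inr i, Sum.inr j => sg i j * F.f02 x

/-- components of a one-form -/
def vv (A : OneF X) (x : X) : Qi → ℂ
  | Sum.inl i => A.f10 x i
  | Sum.inr i => A.f01 x i

theorem twoF_ext {F G : TwoF X} (h : ∀ x q q', pr F x q q' = pr G x q q') : F = G := by
  ext1
  · funext x
    simpa [pr] using h x (Sum.inl 0) (Sum.inl 1)
  · funext x
    ext i j
    exact h x (Sum.inl i) (Sum.inr j)
  · funext x
    simpa [pr] using h x (Sum.inr 0) (Sum.inr 1)

theorem oneF_ext {A B : OneF X} (h : ∀ x q, vv A x q = vv B x q) : A = B := by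
  ext x i
  · exact h x (Sum.inl i)
  · exact h x (Sum.inr i)

/-- a two-form from antisymmetric components -/
def mk2 (Φ : X → Qi → Qi → ℂ) : TwoF X where
  f20 x := Φ x (Sum.inl 0) (Sum.inl 1)
  f11 x := Matrix.of fun i j => Φ x (Sum.inl i) (Sum.inr j)
  f02 x := Φ x (Sum.inr 0) (Sum.inr 1)

theorem pr_mk2 {Φ : X → Qi → Qi → ℂ} {x : X} (h : ∀ q q', Φ x q' q = -Φ x q q') (q q' : Qi) :
    pr (mk2 Φ) x q q' = Φ x q q' := by
  have h0 : ∀ q, Φ x q q = 0 := fun q => by
    have := h q q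
    exact self_eq_neg.1 this
  rcases q with i | i <;> rcases q' with j | j
  · change sg i j * Φ x (Sum.inl 0) (Sum.inl 1) = _
    fin_cases i <;> fin_cases j
    · simp [h0]
    · simp
    · simpa using (h (Sum.inl 0) (Sum.inl 1)).symm
    · simp [h0]
  · rfl
  · exact (h (Sum.inl j) (Sum.inr i)).symm
  · change sg i j * Φ x (Sum.inr 0) (Sum.inr 1) = _
    fin_cases i <;> fin_cases j
    · simp [h0]
    · simp
    · simpa using (h (Sum.inr 0) (Sum.inr 1)).symm
    · simp [h0]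

theorem pr_add (F G : TwoF X) (x : X) (q q' : Qi) : pr (F + G) x q q' = pr F x q q' + pr G x q q' := by
  rcases q with i | i <;> rcases q' with j | j
  · change sg i j * (F.f20 x + G.f20 x) = _
    simp only [pr]; ring
  · rfl
  · change -(F.f11 x j i + G.f11 x j i) = _
    simp only [pr]; ring
  · change sg i j * (F.f02 x + G.f02 x) = _
    simp only [pr]; ring

theorem pr_smul (c : ℂ) (F : TwoF X) (x : X) (q q' : Qi) : pr (c • F) x q q' = c * pr F x q q' := by
  rcases q with i | i <;> rcases q' with j | j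
  · change sg i j * (c * F.f20 x) = _
    simp only [pr]; ring
  · rfl
  · change -(c * F.f11 x j i) = _
    simp only [pr]; ring
  · change sg i j * (c * F.f02 x) = _
    simp only [pr]; ring

theorem pr_neg (F : TwoF X) (x : X) (q q' : Qi) : pr (-F) x q q' = -pr F x q q' := by
  have := pr_smul (-1) F x q q'
  rw [neg_one_smul] at this
  rw [this]; ring

theorem pr_sub (F G : TwoF X) (x : X) (q q' : Qi) : pr (F - G) x q q' = pr F x q q' - pr G x q q' := by
  rw [sub_eq_add_neg, pr_add, pr_neg]; ring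

theorem vv_add (A B : OneF X) (x : X) (q : Qi) : vv (A + B) x q = vv A x q + vv B x q := by
  rcases q with i | i <;> rfl

theorem vv_sub (A B : OneF X) (x : X) (q : Qi) : vv (A - B) x q = vv A x q - vv B x q := by
  rcases q with i | i <;> rfl

theorem vv_smul (c : ℂ) (A : OneF X) (x : X) (q : Qi) : vv (c • A) x q = c * vv A x q := by
  rcases q with i | i <;> rfl

end comps

variable {X : Type*} [TopologicalSpace X] [ChartedSpace C2 X]

theorem vv_dF0 (s : X → ℂ) (x : X) (q : Qi) : vv (dF0 s) x q = DT (tq q) x s := by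
  rcases q with i | i
  · rfl
  · exact dbar0_eq s x i

/-- component functions of a one-form in the preferred chart at `x` -/
def cfun (A : OneF X) (x : X) : Qi → C2 → ℂ
  | Sum.inl i, z => loc10 (chartAt C2 x) A.f10 z i
  | Sum.inr i, z => loc1 0 (chartAt C2 x) A.f01 z i

theorem pr_d (A : OneF X) (x : X) (q q' : Qi) :
    pr A.d x q q' = Dq q (cfun A x q') (chartAt C2 x x) - Dq q' (cfun A x q) (chartAt C2 x x) := by
  rcases q with i | i <;> rcases q' with j | j
  · change sg i j * (dz 0 (cfun A x (Sum.inl 1)) _ - dz 1 (cfun A x (Sum.inl 0)) _) =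
      dz i (cfun A x (Sum.inl j)) _ - dz j (cfun A x (Sum.inl i)) _
    fin_cases i <;> fin_cases j <;> simp
  · change dz i (cfun A x (Sum.inr j)) _ + -dzb j (cfun A x (Sum.inl i)) _ =
      dz i (cfun A x (Sum.inr j)) _ - dzb j (cfun A x (Sum.inl i)) _
    ring
  · change -(dz j (cfun A x (Sum.inr i)) _ + -dzb i (cfun A x (Sum.inl j)) _) =
      dzb i (cfun A x (Sum.inl j)) _ - dz j (cfun A x (Sum.inr i)) _
    ring
  · change sg i j * (dzb 0 (cfun A x (Sum.inr 1)) _ - dzb 1 (cfun A x (Sum.inr 0)) _) =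
      dzb i (cfun A x (Sum.inr j)) _ - dzb j (cfun A x (Sum.inr i)) _
    fin_cases i <;> fin_cases j <;> simp

/-- smoothness of a one-form at `x` -/
def OAt (A : OneF X) (x : X) : Prop := ∀ q, ContDiffAt ℝ ∞ (cfun A x q) (chartAt C2 x x)

/-- smoothness at `x`, in the preferred chart -/
def SmAt (f : X → ℂ) (x : X) : Prop :=
  ContDiffAt ℝ ∞ (fun z => f ((chartAt C2 x).symm z)) (chartAt C2 x x)

theorem SmAt.dat {f : X → ℂ} {x : X} (h : SmAt f x) : DAt f x :=
  ContDiffAt.differentiableAt h (by simp)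

theorem SmAt.const (c : ℂ) (x : X) : SmAt (fun _ : X => c) x := contDiffAt_const

theorem SmAt.add {f g : X → ℂ} {x : X} (hf : SmAt f x) (hg : SmAt g x) :
    SmAt (fun y => f y + g y) x := ContDiffAt.add hf hg

theorem SmAt.mul {f g : X → ℂ} {x : X} (hf : SmAt f x) (hg : SmAt g x) :
    SmAt (fun y => f y * g y) x := ContDiffAt.mul hf hg

theorem SmAt.sum {κ : Type*} {s : Finset κ} {f : κ → X → ℂ} {x : X}
    (hf : ∀ i ∈ s, SmAt (f i) x) : SmAt (fun y => ∑ i ∈ s, f i y) x := ContDiffAt.sum hf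

theorem SmAt.congr {f g : X → ℂ} {x : X} (hf : SmAt f x) (h : g =ᶠ[𝓝 x] f) : SmAt g x :=
  ContDiffAt.congr_of_eventuallyEq hf (eventuallyEq_chart h)

theorem SmAt.of_reg {f : X → ℂ} (hf : Reg0 ∞ 0 f) (x : X) : SmAt f x := by
  have h := hf (chartAt C2 x) (chart_mem_atlas C2 x)
  rw [LB.loc0_zero] at h
  exact (h (chartAt C2 x x) ((chartAt C2 x).map_source (mem_chart_source C2 x))).contDiffAt
    ((chartAt C2 x).open_target.mem_nhds ((chartAt C2 x).map_source (mem_chart_source C2 x)))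

theorem SmAt.comp {f : X → ℂ} {F : ℂ → ℂ} {x : X} (hf : SmAt f x)
    (hF : ContDiffAt ℝ ∞ F (f x)) : SmAt (fun y => F (f y)) x := by
  have h0 : f ((chartAt C2 x).symm (chartAt C2 x x)) = f x := by
    rw [(chartAt C2 x).left_inv (mem_chart_source C2 x)]
  refine ContDiffAt.comp (g := F) (f := fun z => f ((chartAt C2 x).symm z)) (chartAt C2 x x) ?_ hf
  rw [h0]
  exact hF

theorem SmAt.conj {f : X → ℂ} {x : X} (hf : SmAt f x) : SmAt (fun y => conj (f y)) x :=
  SmAt.comp (F := fun w => (starRingEnd ℂ) w) hf Complex.conjCLE.contDiff.contDiffAt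

theorem SmAt.continuousAt {f : X → ℂ} {x : X} (hf : SmAt f x) : ContinuousAt f x := by
  have h1 : ContinuousAt (fun z => f ((chartAt C2 x).symm z)) (chartAt C2 x x) :=
    ContDiffAt.continuousAt hf
  have h2 : ContinuousAt (chartAt C2 x) x :=
    (chartAt C2 x).continuousAt (mem_chart_source C2 x)
  have h3 : ContinuousAt ((fun z => f ((chartAt C2 x).symm z)) ∘ (chartAt C2 x)) x :=
    ContinuousAt.comp h1 h2
  refine h3.congr ?_
  filter_upwards [(chartAt C2 x).open_source.mem_nhds (mem_chart_source C2 x)] with y hy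
  simp only [Function.comp, (chartAt C2 x).left_inv hy]

section manifold

variable [IsManifold 𝓘(ℂ, C2) ω X]

theorem reg0_iff_smAt {f : X → ℂ} : Reg0 ∞ 0 f ↔ ∀ x, SmAt f x := by
  rw [reg0_iff]
  simp only [LB.loc0_zero]
  rfl

theorem cfun_self (A : OneF X) (x : X) (q : Qi) : cfun A x q (chartAt C2 x x) = vv A x q := by
  rcases q with i | i
  · change ∑ p, jac (chartAt C2 x) ((chartAt C2 x).symm (chartAt C2 x x)) p i •
      A.f10 ((chartAt C2 x).symm (chartAt C2 x x)) p = A.f10 x i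
    rw [(chartAt C2 x).left_inv (mem_chart_source C2 x), jac_chartAt]
    simp [Matrix.one_apply]
  · exact congrFun (loc1_chartAt 0 A.f01 x) i

/-- `∂` of a function, in an arbitrary chart -/
theorem loc10_del0 {e : Ch X} (he : e ∈ atlas C2 X) {z : C2} (hz : z ∈ e.target)
    {s : X → ℂ} (h : DifferentiableAt ℝ (fun z => s (e.symm z)) z) (i : Fin 2) :
    loc10 e (del0 s) z i = dz i (fun z => s (e.symm z)) z := by
  obtain ⟨x, hx, rfl⟩ : ∃ x ∈ e.source, e x = z := ⟨e.symm z, e.map_target hz, e.right_inv hz⟩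
  set e' := chartAt C2 x with he'd
  have he' : e' ∈ atlas C2 X := chart_mem_atlas C2 x
  have hx' : x ∈ e'.source := mem_chart_source C2 x
  have hd' : DifferentiableAt ℝ (fun z => s (e'.symm z)) (e' x) := by
    have h1 : (fun z => s (e'.symm z)) =ᶠ[𝓝 (e' x)] fun z =>
        (fun w => s (e.symm w)) (e (e'.symm z)) := by
      filter_upwards [(isOpen_trans e' e).mem_nhds (mem_trans hx' hx)] with z hz
      simp only [e.left_inv hz.2]
    refine DifferentiableAt.congr_of_eventuallyEq ?_ h1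
    have h3 : DifferentiableAt ℝ (fun z => e (e'.symm z)) (e' x) :=
      (trans_differentiableAt he' he hx' hx).restrictScalars ℝ
    refine DifferentiableAt.comp (g := fun w => s (e.symm w)) (e' x) ?_ h3
    simpa only [e'.left_inv hx'] using h
  have h1 : (fun z => s (e.symm z)) =ᶠ[𝓝 (e x)] fun z =>
      (fun w => s (e'.symm w)) (e' (e.symm z)) := by
    filter_upwards [(isOpen_trans e e').mem_nhds (mem_trans hx hx')] with z hz
    simp only [e'.left_inv hz.2]
  have h3 := trans_differentiableAt he he' hx hx'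
  have hd'' : DifferentiableAt ℝ (fun z => s (e'.symm z)) ((fun z => e' (e.symm z)) (e x)) := by
    simpa only [e.left_inv hx] using hd'
  rw [dz_congr h1, dz_comp hd'' h3]
  simp only [loc10, e.left_inv hx]
  rfl

/-- component functions of `ds` -/
theorem cfun_dF0 {s : X → ℂ} {x : X} (hs : SmAt s x) (q : Qi) :
    cfun (dF0 s) x q =ᶠ[𝓝 (chartAt C2 x x)] Dq q (fun z => s ((chartAt C2 x).symm z)) := by
  set e := chartAt C2 x with he
  have h2 : ∀ᶠ z in 𝓝 (e x), DifferentiableAt ℝ (fun w => s (e.symm w)) z := by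
    have h3 : ContDiffAt ℝ 1 (fun w => s (e.symm w)) (e x) :=
      ContDiffAt.of_le hs (by norm_num)
    filter_upwards [h3.eventually (by simp)] with z hz
    exact hz.differentiableAt (by simp)
  filter_upwards [h2, e.open_target.mem_nhds (e.map_source (mem_chart_source C2 x))] with z hz hz'
  rcases q with i | i
  · exact loc10_del0 (chart_mem_atlas C2 x) hz' hz i
  · have := loc1_dbar0 (κ := 0) (chart_mem_atlas C2 x) hz' (s := s)
      (by rw [LB.loc0_zero]; exact hz) i
    rw [LB.loc0_zero] at this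
    exact this

theorem OneF_Smooth_at {A : OneF X} (h : A.Smooth) (x : X) : OAt A x := by
  intro q
  rcases q with i | i
  · have h1 := h.s10 (chartAt C2 x) (chart_mem_atlas C2 x) (chartAt C2 x x)
      ((chartAt C2 x).map_source (mem_chart_source C2 x))
    exact contDiffAt_pi.1 (h1.contDiffAt ((chartAt C2 x).open_target.mem_nhds
      ((chartAt C2 x).map_source (mem_chart_source C2 x)))) i
  · have h1 := h.s01 (chartAt C2 x) (chart_mem_atlas C2 x) (chartAt C2 x x)
      ((chartAt C2 x).map_source (mem_chart_source C2 x))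
    exact contDiffAt_pi.1 (h1.contDiffAt ((chartAt C2 x).open_target.mem_nhds
      ((chartAt C2 x).map_source (mem_chart_source C2 x)))) i

theorem loc10_conj (e : Ch X) (c : X → Fin 2 → ℂ) (z : C2) (i : Fin 2) :
    loc10 e c z i = conj (loc1 0 e (fun y p => conj (c y p)) z i) := by
  simp [loc10, loc1]

theorem reg10_of_at {c : X → Fin 2 → ℂ}
    (h : ∀ x i, ContDiffAt ℝ ∞ (fun z => loc10 (chartAt C2 x) c z i) (chartAt C2 x x)) :
    Reg10 ∞ c := by
  have h1 : Reg1 ∞ 0 (fun y p => conj (c y p)) := by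
    rw [reg1_iff]
    intro x
    rw [contDiffAt_pi]
    intro i
    have : (fun z => loc1 0 (chartAt C2 x) (fun y p => conj (c y p)) z i) =
        fun z => conj (loc10 (chartAt C2 x) c z i) := by
      funext z
      rw [loc10_conj, Complex.conj_conj]
    rw [this]
    exact (Complex.conjCLE.contDiff.contDiffAt).comp (chartAt C2 x x) (h x i)
  intro e he
  rw [contDiffOn_pi]
  intro i
  have : (fun z => loc10 e c z i) = fun z => conj (loc1 0 e (fun y p => conj (c y p)) z i) := by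
    funext z
    rw [loc10_conj]
  rw [this]
  exact (Complex.conjCLE.contDiff).comp_contDiffOn (contDiffOn_pi.1 (h1 e he) i)

theorem OneF_Smooth_of_at {A : OneF X} (h : ∀ x, OAt A x) : A.Smooth := by
  refine ⟨reg10_of_at fun x i => h x (Sum.inl i), ?_⟩
  rw [reg1_iff]
  intro x
  rw [contDiffAt_pi]
  exact fun i => h x (Sum.inr i)

end manifold

/-! ### partitions of unity -/

/-- A finite smooth partition of unity `ρ_a`, with `supp ρ_a ⊆ U_a`, `U_a` open. -/
structure Part (X : Type*) [TopologicalSpace X] [ChartedSpace C2 X] (ι : Type*) [Fintype ι] where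
  U : ι → Set X
  isOpen : ∀ a, IsOpen (U a)
  ρ : ι → X → ℝ
  smooth : ∀ a, Reg0 ∞ 0 (fun x => (ρ a x : ℂ))
  supp : ∀ a, tsupport (ρ a) ⊆ U a
  sum : ∀ x, ∑ a, ρ a x = 1

/-- 2-cocycles on the nerve of the family `U` -/
def IsCoc {ι R : Type*} [AddCommGroup R] (U : ι → Set X) (z : ι → ι → ι → R) : Prop :=
  ∀ a b c d x, x ∈ U a → x ∈ U b → x ∈ U c → x ∈ U d →
    z b c d - z a c d + z a b d - z a b c = 0

namespace Part

variable {ι : Type*} [Fintype ι] (S : Part X ι)

/-- the functions of the partition, complex valued -/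
def ψ (a : ι) (x : X) : ℂ := (S.ρ a x : ℂ)

theorem sum_ψ (x : X) : ∑ a, S.ψ a x = 1 := by
  have := S.sum x
  have h : ((∑ a, S.ρ a x : ℝ) : ℂ) = 1 := by rw [this]; simp
  rw [← h]
  push_cast
  rfl

theorem mem_of_ne {a : ι} {x : X} (h : S.ψ a x ≠ 0) : x ∈ S.U a :=
  S.supp a (subset_tsupport _ (by simpa [ψ] using h))

theorem ψ_of_not {a : ι} {x : X} (h : x ∉ S.U a) : S.ψ a x = 0 := by
  by_contra h'
  exact h (S.mem_of_ne h')

theorem exists_mem (x : X) : ∃ a, x ∈ S.U a := by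
  by_contra hcon
  push Not at hcon
  have h : ∀ a, S.ψ a x = 0 := fun a => S.ψ_of_not (hcon a)
  have := S.sum_ψ x
  simp [h] at this

theorem smAt_ψ (a : ι) (x : X) : SmAt (S.ψ a) x := SmAt.of_reg (S.smooth a) x

theorem dat_ψ (a : ι) (x : X) : DAt (S.ψ a) x := (S.smAt_ψ a x).dat

theorem sum_DT_ψ (T : (C2 →L[ℝ] ℂ) →ₗ[ℂ] ℂ) (x : X) : ∑ a, DT T x (S.ψ a) = 0 := by
  rw [← DT_sum T (fun a _ => S.dat_ψ a x)]
  have : (fun y => ∑ a, S.ψ a y) = fun _ => (1 : ℂ) := funext fun y => S.sum_ψ y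
  rw [this, DT_const]

variable {S}

theorem ψ_eventually {a : ι} {x : X} (h : x ∉ S.U a) : S.ψ a =ᶠ[𝓝 x] fun _ => 0 := by
  have hb' : x ∉ tsupport (S.ρ a) := fun h' => h (S.supp a h')
  have : S.ρ a =ᶠ[𝓝 x] 0 := notMem_tsupport_iff_eventuallyEq.1 hb'
  filter_upwards [this] with y hy
  simp [ψ, hy]

theorem DT_ψ_of_not {a : ι} {x : X} (h : x ∉ S.U a) (T : (C2 →L[ℝ] ℂ) →ₗ[ℂ] ℂ) :
    DT T x (S.ψ a) = 0 := by
  rw [DT_congr T (ψ_eventually h), DT_const]

variable (S)

/-- value of `dψ_b ∧ dψ_c` on a pair of functionals -/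
def wd (b c : ι) (x : X) (T T' : (C2 →L[ℝ] ℂ) →ₗ[ℂ] ℂ) : ℂ :=
  DT T x (S.ψ b) * DT T' x (S.ψ c) - DT T' x (S.ψ b) * DT T x (S.ψ c)

/-- value of `W(r) = ∑ r_abc ψ_a dψ_b ∧ dψ_c` on a pair of functionals -/
def Wp (r : ι → ι → ι → ℂ) (x : X) (T T' : (C2 →L[ℝ] ℂ) →ₗ[ℂ] ℂ) : ℂ :=
  ∑ a, ∑ b, ∑ c, r a b c * S.ψ a x * S.wd b c x T T'

variable {S}

theorem wd_eq_zero {b c : ι} {x : X} (h : x ∉ S.U b ∨ x ∉ S.U c)
    (T T' : (C2 →L[ℝ] ℂ) →ₗ[ℂ] ℂ) : S.wd b c x T T' = 0 := by
  rcases h with h | h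
  · simp [wd, DT_ψ_of_not h]
  · simp [wd, DT_ψ_of_not h]

theorem sum_wd_left (c : ι) (x : X) (T T' : (C2 →L[ℝ] ℂ) →ₗ[ℂ] ℂ) :
    ∑ b, S.wd b c x T T' = 0 := by
  simp only [wd]
  rw [Finset.sum_sub_distrib, ← Finset.sum_mul, ← Finset.sum_mul, S.sum_DT_ψ, S.sum_DT_ψ]
  ring

theorem sum_wd_right (b : ι) (x : X) (T T' : (C2 →L[ℝ] ℂ) →ₗ[ℂ] ℂ) :
    ∑ c, S.wd b c x T T' = 0 := by
  simp only [wd]
  rw [Finset.sum_sub_distrib, ← Finset.mul_sum, ← Finset.mul_sum, S.sum_DT_ψ, S.sum_DT_ψ]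
  ring

theorem wd_anti (b c : ι) (x : X) (T T' : (C2 →L[ℝ] ℂ) →ₗ[ℂ] ℂ) :
    S.wd b c x T' T = -S.wd b c x T T' := by
  simp only [wd]; ring

theorem Wp_anti (r : ι → ι → ι → ℂ) (x : X) (T T' : (C2 →L[ℝ] ℂ) →ₗ[ℂ] ℂ) :
    S.Wp r x T' T = -S.Wp r x T T' := by
  simp only [Wp, wd_anti _ _ x T T', mul_neg, Finset.sum_neg_distrib]

/-- For a cocycle `r` the form `W(r)` is, near a point of `U_a`, equal to
`-∑_{b,c} r_bac dψ_b ∧ dψ_c`. -/
theorem sum_coc_wd {r : ι → ι → ι → ℂ} (hr : IsCoc S.U r) {a : ι} {x : X} (ha : x ∈ S.U a)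
    (T T' : (C2 →L[ℝ] ℂ) →ₗ[ℂ] ℂ) :
    ∑ b, ∑ c, r b a c * S.wd b c x T T' = - ∑ b, ∑ c, r a b c * S.wd b c x T T' := by
  have h1 : ∀ b c, r b a c * S.wd b c x T T' =
      -(r a b c * S.wd b c x T T') + r a a c * S.wd b c x T T' + r a b a * S.wd b c x T T' := by
    intro b c
    by_cases hbc : x ∉ S.U b ∨ x ∉ S.U c
    · rw [wd_eq_zero hbc]
      ring
    · push Not at hbc
      have := hr a b a c x ha hbc.1 ha hbc.2
      linear_combination S.wd b c x T T' * this
  have h2 : ∑ b, ∑ c, r a a c * S.wd b c x T T' = 0 := by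
    rw [Finset.sum_comm]
    refine Finset.sum_eq_zero fun c _ => ?_
    rw [← Finset.mul_sum, sum_wd_left, mul_zero]
  have h3 : ∑ b, ∑ c, r a b a * S.wd b c x T T' = 0 := by
    refine Finset.sum_eq_zero fun b _ => ?_
    rw [← Finset.mul_sum, sum_wd_right, mul_zero]
  simp_rw [h1]
  simp only [Finset.sum_add_distrib, Finset.sum_neg_distrib]
  rw [h2, h3]
  ring

theorem Wp_eq {r : ι → ι → ι → ℂ} (hr : IsCoc S.U r) (x : X)
    (T T' : (C2 →L[ℝ] ℂ) →ₗ[ℂ] ℂ) {F : ℂ}
    (hF : ∀ a, x ∈ S.U a → F = ∑ b, ∑ c, r b a c * S.wd b c x T T') :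
    F = - S.Wp r x T T' := by
  have h1 : F = ∑ a, S.ψ a x * F := by rw [← Finset.sum_mul, S.sum_ψ, one_mul]
  rw [h1, Wp, ← Finset.sum_neg_distrib]
  refine Finset.sum_congr rfl fun a _ => ?_
  by_cases ha : x ∈ S.U a
  · rw [hF a ha, sum_coc_wd hr ha, mul_neg, Finset.mul_sum]
    congr 1
    refine Finset.sum_congr rfl fun b _ => ?_
    rw [Finset.mul_sum]
    exact Finset.sum_congr rfl fun c _ => by ring
  · rw [S.ψ_of_not ha]
    simp

/-- near a point of `U_a`, `-W(r) = ∑_{b,c} r_bac dψ_b ∧ dψ_c` -/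
theorem Wp_eq' {r : ι → ι → ι → ℂ} (hr : IsCoc S.U r) {x : X} {a : ι} (ha : x ∈ S.U a)
    (T T' : (C2 →L[ℝ] ℂ) →ₗ[ℂ] ℂ) :
    S.Wp r x T T' = -∑ b, ∑ c, r b a c * S.wd b c x T T' := by
  have h1 : ∑ b, ∑ c, r b a c * S.wd b c x T T' = -S.Wp r x T T' := by
    refine Wp_eq hr x T T' fun a' ha' => ?_
    have e1 : ∀ b c, r b a c * S.wd b c x T T' = r b a' c * S.wd b c x T T' +
        r b a a' * S.wd b c x T T' - r a a' c * S.wd b c x T T' := by
      intro b c
      by_cases hbc : x ∉ S.U b ∨ x ∉ S.U c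
      · rw [wd_eq_zero hbc]
        ring
      · push Not at hbc
        have := hr b a a' c x hbc.1 ha ha' hbc.2
        linear_combination S.wd b c x T T' * this
    have e2 : ∑ b, ∑ c, r b a a' * S.wd b c x T T' = 0 := by
      refine Finset.sum_eq_zero fun b _ => ?_
      rw [← Finset.mul_sum, sum_wd_right, mul_zero]
    have e3 : ∑ b, ∑ c, r a a' c * S.wd b c x T T' = 0 := by
      rw [Finset.sum_comm]
      refine Finset.sum_eq_zero fun c _ => ?_
      rw [← Finset.mul_sum, sum_wd_left, mul_zero]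
    simp_rw [e1]
    simp only [Finset.sum_add_distrib, Finset.sum_sub_distrib]
    rw [e2, e3]
    ring
  rw [h1, neg_neg]

variable (S)

/-- the two-form `W(r) = ∑ r_abc ψ_a dψ_b ∧ dψ_c` -/
def W (r : ι → ι → ι → ℂ) : TwoF X := mk2 fun x q q' => S.Wp r x (tq q) (tq q')

@[simp] theorem pr_W (r : ι → ι → ι → ℂ) (x : X) (q q' : Qi) :
    pr (S.W r) x q q' = S.Wp r x (tq q) (tq q') :=
  pr_mk2 (fun q q' => Wp_anti r x (tq q) (tq q')) q q'

end Part

/-! ### the curvature of a line bundle in components -/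

theorem curP_anti {κ : Type*} [Fintype κ] [DecidableEq κ] (P : X → Matrix κ κ ℂ) (x : X)
    (T T' : (C2 →L[ℝ] ℂ) →ₗ[ℂ] ℂ) : curP P x T' T = -curP P x T T' := by
  unfold curP
  rw [← Matrix.trace_neg, ← mul_neg, neg_sub]

theorem curv_eq_mk2 {κ : Type} [Fintype κ] [DecidableEq κ] (L : LB X κ) :
    L.curv = mk2 fun x q q' => curP L.P x (tq q) (tq q') := by
  have hb : ∀ x l, (Matrix.of fun i j => dbar0 0 (fun y => L.P y i j) x l) = DM (tb l) x L.P := by
    intro x l
    ext i j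
    exact dbar0_eq _ x l
  ext1
  · rfl
  · funext x
    ext k l
    change (L.P x * ((Matrix.of fun i j => del0 (fun y => L.P y i j) x k) *
        (Matrix.of fun i j => dbar0 0 (fun y => L.P y i j) x l) -
      (Matrix.of fun i j => dbar0 0 (fun y => L.P y i j) x l) *
        (Matrix.of fun i j => del0 (fun y => L.P y i j) x k))).trace = _
    rw [hb]
    rfl
  · funext x
    change (L.P x * ((Matrix.of fun i j => dbar0 0 (fun y => L.P y i j) x 0) *
      (Matrix.of fun i j => dbar0 0 (fun y => L.P y i j) x 1) -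
    (Matrix.of fun i j => dbar0 0 (fun y => L.P y i j) x 1) *
      (Matrix.of fun i j => dbar0 0 (fun y => L.P y i j) x 0))).trace = _
    rw [hb, hb]
    rfl

theorem pr_curv {κ : Type} [Fintype κ] [DecidableEq κ] (L : LB X κ) (x : X) (q q' : Qi) :
    pr L.curv x q q' = curP L.P x (tq q) (tq q') := by
  rw [curv_eq_mk2]
  exact pr_mk2 (fun q q' => curP_anti L.P x (tq q) (tq q')) q q'

end Vale.Agent.P267.H995
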