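import Vale.Agent.P267.H995.Form

/-!
# P267, UNI-LB: the zigzag lemma

`Zig U F`: one-forms `ω_a` with `dω_a = F` on `U_a`, functions `l_ab` with
`ω_b - ω_a = d l_ab` on `U_a ∩ U_b` and constants `r_abc = l_ab + l_bc - l_ac` on the triple
intersections.  For a partition of unity `S` subordinate to `U`:
`F = -W(r) + dθ`, `θ = ∑ ψ_a ω_a + ∑ ψ_b l_ba dψ_a` (`Zig.eq`, `Zig.smooth_theta`).
-/

set_option linter.unusedSectionVars false

open scoped Manifold ContDiff ComplexConjugate Matrix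
open Set Filter Topology

noncomputable section

namespace Vale.Agent.P267.H995

open Vale.Agent.P267.FL

variable {X : Type*} [TopologicalSpace X] [ChartedSpace C2 X]

/-- zigzag data over the sets `U` for a two-form `F` -/
structure Zig {ι : Type*} (U : ι → Set X) (F : TwoF X) where
  om : ι → OneF X
  l : ι → ι → X → ℂ
  r : ι → ι → ι → ℂ
  sm_om : ∀ a x, x ∈ U a → OAt (om a) x
  sml : ∀ a b x, x ∈ U a → x ∈ U b → SmAt (l a b) x
  d_om : ∀ a x, x ∈ U a → ∀ q q', pr (om a).d x q q' = pr F x q q'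
  dl : ∀ a b x, x ∈ U a → x ∈ U b → ∀ q, vv (om b) x q = vv (om a) x q + DT (tq q) x (l a b)
  coc : ∀ a b c x, x ∈ U a → x ∈ U b → x ∈ U c → l a b x + l b c x - l a c x = r a b c

namespace Zig

theorem isCoc {ι : Type*} {U : ι → Set X} {F : TwoF X} (Z : Zig U F) : IsCoc U Z.r := by
  intro a b c d x ha hb hc hd
  have h1 := Z.coc b c d x hb hc hd
  have h2 := Z.coc a c d x ha hc hd
  have h3 := Z.coc a b d x ha hb hd
  have h4 := Z.coc a b c x ha hb hc
  linear_combination -h1 + h2 - h3 + h4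

variable {ι : Type*} [Fintype ι] {S : Part X ι} {F : TwoF X} (Z : Zig S.U F)

/-- the global one-form `θ = ∑ ψ_a ω_a + ∑ ψ_b l_ba dψ_a` -/
def theta : OneF X :=
  ∑ a, fmul (S.ψ a) (Z.om a) + ∑ b, ∑ a, fmul (fun x => S.ψ b x * Z.l b a x) (dF0 (S.ψ a))

open Classical in
/-- the one-form `θ`, near `x` -/
def thx (x : X) : OneF X :=
  ∑ a ∈ Finset.univ.filter (fun a => x ∈ S.U a), fmul (S.ψ a) (Z.om a) +
    ∑ b ∈ Finset.univ.filter (fun a => x ∈ S.U a), ∑ a ∈ Finset.univ.filter (fun a => x ∈ S.U a),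
      fmul (fun x => S.ψ b x * Z.l b a x) (dF0 (S.ψ a))

theorem theta_eventually (x : X) : ∀ᶠ y in 𝓝 x, ∀ q, vv Z.theta y q = vv (Z.thx x) y q := by
  classical
  have h0 : ∀ᶠ y in 𝓝 x, ∀ a, x ∉ S.U a → S.ψ a =ᶠ[𝓝 y] fun _ => 0 := by
    rw [eventually_all]
    intro a
    by_cases h : x ∈ S.U a
    · exact Eventually.of_forall fun y hy => absurd h hy
    · exact (Part.ψ_eventually h).eventually_nhds.mono fun y hy _ => hy
  filter_upwards [h0] with y hy q
  simp only [theta, thx, vv_add, vv_sum, vv_fmul, vv_dF0]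
  congr 1
  · rw [Finset.sum_filter]
    refine Finset.sum_congr rfl fun a _ => ?_
    split_ifs with h
    · rfl
    · rw [(hy a h).eq_of_nhds, zero_mul]
  · rw [Finset.sum_filter]
    refine Finset.sum_congr rfl fun b _ => ?_
    split_ifs with h
    · rw [Finset.sum_filter]
      refine Finset.sum_congr rfl fun a _ => ?_
      split_ifs with h'
      · rfl
      · rw [DT_congr _ (hy a h'), DT_const, mul_zero]
    · refine Finset.sum_eq_zero fun a _ => ?_
      rw [(hy b h).eq_of_nhds, zero_mul, zero_mul]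

section manifold

variable [IsManifold 𝓘(ℂ, C2) ω X]

theorem OAt_thx (x : X) : OAt (Z.thx x) x := by
  classical
  refine OAt.add (OAt.sum fun a ha => ?_) (OAt.sum fun b hb => OAt.sum fun a ha => ?_)
  · rw [Finset.mem_filter] at ha
    exact OAt.fmul (S.smAt_ψ a x) (Z.sm_om a x ha.2)
  · rw [Finset.mem_filter] at ha hb
    exact OAt.fmul ((S.smAt_ψ b x).mul (Z.sml b a x hb.2 ha.2)) (OAt_dF0 (S.smAt_ψ a x))

/-- `θ` is smooth -/
theorem smooth_theta : Z.theta.Smooth :=
  OneF_Smooth_of_at fun x => (Z.OAt_thx x).congr (Z.theta_eventually x)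

/-- `dθ`, first form -/
theorem pr_dtheta (x : X) (q q' : Qi) :
    pr Z.theta.d x q q' = pr F x q q' +
      ∑ a, (DT (tq q) x (S.ψ a) * vv (Z.om a) x q' - DT (tq q') x (S.ψ a) * vv (Z.om a) x q) +
      ∑ b, ∑ a, (S.ψ b x * (DT (tq q) x (Z.l b a) * DT (tq q') x (S.ψ a) -
        DT (tq q') x (Z.l b a) * DT (tq q) x (S.ψ a)) +
          Z.l b a x * S.wd b a x (tq q) (tq q')) := by
  classical
  rw [pr_d_congr (Z.theta_eventually x)]
  have hF : pr F x q q' +
      ∑ a, (DT (tq q) x (S.ψ a) * vv (Z.om a) x q' - DT (tq q') x (S.ψ a) * vv (Z.om a) x q) =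
      ∑ a, (DT (tq q) x (S.ψ a) * vv (Z.om a) x q' - DT (tq q') x (S.ψ a) * vv (Z.om a) x q +
        S.ψ a x * pr F x q q') := by
    rw [Finset.sum_add_distrib, ← Finset.sum_mul, S.sum_ψ, one_mul, add_comm]
  rw [hF, thx, pr_d_add, pr_d_sum, pr_d_sum]
  · congr 1
    · rw [Finset.sum_filter]
      refine Finset.sum_congr rfl fun a _ => ?_
      split_ifs with h
      · rw [pr_d_fmul (S.smAt_ψ a x) (Z.sm_om a x h), Z.d_om a x h]
      · rw [S.ψ_of_not h, Part.DT_ψ_of_not h, Part.DT_ψ_of_not h]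
        ring
    · rw [Finset.sum_filter]
      refine Finset.sum_congr rfl fun b _ => ?_
      split_ifs with h
      · rw [pr_d_sum, Finset.sum_filter]
        · refine Finset.sum_congr rfl fun a _ => ?_
          split_ifs with h'
          · rw [pr_d_fds ((S.smAt_ψ b x).mul (Z.sml b a x h h')) (S.smAt_ψ a x),
              DT_mul _ (S.dat_ψ b x) (Z.sml b a x h h').dat,
              DT_mul _ (S.dat_ψ b x) (Z.sml b a x h h').dat, Part.wd]
            ring
          · rw [Part.wd_eq_zero (Or.inr h'), Part.DT_ψ_of_not h', Part.DT_ψ_of_not h']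
            ring
        · intro a ha
          rw [Finset.mem_filter] at ha
          exact OAt.fmul ((S.smAt_ψ b x).mul (Z.sml b a x h ha.2)) (OAt_dF0 (S.smAt_ψ a x))
      · symm
        refine Finset.sum_eq_zero fun a _ => ?_
        rw [S.ψ_of_not h, Part.wd_eq_zero (Or.inl h)]
        ring
  · intro b hb
    rw [Finset.mem_filter] at hb
    refine OAt.sum fun a ha => ?_
    rw [Finset.mem_filter] at ha
    exact OAt.fmul ((S.smAt_ψ b x).mul (Z.sml b a x hb.2 ha.2)) (OAt_dF0 (S.smAt_ψ a x))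
  · intro a ha
    rw [Finset.mem_filter] at ha
    exact OAt.fmul (S.smAt_ψ a x) (Z.sm_om a x ha.2)
  · refine OAt.sum fun a ha => ?_
    rw [Finset.mem_filter] at ha
    exact OAt.fmul (S.smAt_ψ a x) (Z.sm_om a x ha.2)
  · refine OAt.sum fun b hb => OAt.sum fun a ha => ?_
    rw [Finset.mem_filter] at ha hb
    exact OAt.fmul ((S.smAt_ψ b x).mul (Z.sml b a x hb.2 ha.2)) (OAt_dF0 (S.smAt_ψ a x))

/-- derivative of the cocycle relation -/
theorem DT_l (T : (C2 →L[ℝ] ℂ) →ₗ[ℂ] ℂ) {a b c : ι} {x : X} (ha : x ∈ S.U a) (hb : x ∈ S.U b)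
    (hc : x ∈ S.U c) :
    DT T x (Z.l b a) = DT T x (Z.l b c) + DT T x (Z.l c a) := by
  have hn : ∀ᶠ y in 𝓝 x, y ∈ S.U a ∧ y ∈ S.U b ∧ y ∈ S.U c := by
    filter_upwards [(S.isOpen a).mem_nhds ha, (S.isOpen b).mem_nhds hb,
      (S.isOpen c).mem_nhds hc] with y h1 h2 h3 using ⟨h1, h2, h3⟩
  have h1 : (fun y => Z.l b c y + Z.l c a y) =ᶠ[𝓝 x] fun y => Z.l b a y + Z.r b c a := by
    filter_upwards [hn] with y hy
    have := Z.coc b c a y hy.2.1 hy.2.2 hy.1
    linear_combination this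
  have h2 := DT_congr T h1
  rw [DT_add T (Z.sml b c x hb hc).dat (Z.sml c a x hc ha).dat,
    DT_add T (Z.sml b a x hb ha).dat (DAt.const _), DT_const, add_zero] at h2
  exact h2.symm

/-- `dθ = F - ∑ r_bca dψ_b ∧ dψ_a` near a point of `U_c` -/
theorem pr_dtheta' {x : X} {c : ι} (hc : x ∈ S.U c) (q q' : Qi) :
    pr Z.theta.d x q q' = pr F x q q' -
      ∑ b, ∑ a, Z.r b c a * S.wd b a x (tq q) (tq q') := by
  rw [pr_dtheta]
  set T := tq q with hT
  set T' := tq q' with hT'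
  -- first sum
  have h1 : ∑ a, (DT T x (S.ψ a) * vv (Z.om a) x q' - DT T' x (S.ψ a) * vv (Z.om a) x q) =
      ∑ a, (DT T x (S.ψ a) * DT T' x (Z.l c a) - DT T' x (S.ψ a) * DT T x (Z.l c a)) := by
    have e1 : ∀ a, DT T x (S.ψ a) * vv (Z.om a) x q' - DT T' x (S.ψ a) * vv (Z.om a) x q =
        (DT T x (S.ψ a) * DT T' x (Z.l c a) - DT T' x (S.ψ a) * DT T x (Z.l c a)) +
        (DT T x (S.ψ a) * vv (Z.om c) x q' - DT T' x (S.ψ a) * vv (Z.om c) x q) := by
      intro a
      by_cases h : x ∈ S.U a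
      · rw [Z.dl c a x hc h q, Z.dl c a x hc h q']
        ring
      · rw [Part.DT_ψ_of_not h, Part.DT_ψ_of_not h]
        ring
    simp only [e1]
    rw [Finset.sum_add_distrib,
      Finset.sum_sub_distrib (f := fun a => DT T x (S.ψ a) * vv (Z.om c) x q'),
      ← Finset.sum_mul, ← Finset.sum_mul, S.sum_DT_ψ, S.sum_DT_ψ]
    ring
  -- second sum
  have h2 : ∑ b, ∑ a, S.ψ b x * (DT T x (Z.l b a) * DT T' x (S.ψ a) -
        DT T' x (Z.l b a) * DT T x (S.ψ a)) =
      ∑ a, (DT T x (Z.l c a) * DT T' x (S.ψ a) - DT T' x (Z.l c a) * DT T x (S.ψ a)) := by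
    have e1 : ∀ b, ∑ a, S.ψ b x * (DT T x (Z.l b a) * DT T' x (S.ψ a) -
        DT T' x (Z.l b a) * DT T x (S.ψ a)) = S.ψ b x *
        ∑ a, (DT T x (Z.l c a) * DT T' x (S.ψ a) - DT T' x (Z.l c a) * DT T x (S.ψ a)) := by
      intro b
      by_cases hb : x ∈ S.U b
      · rw [← Finset.mul_sum]
        congr 1
        have e2 : ∀ a, DT T x (Z.l b a) * DT T' x (S.ψ a) - DT T' x (Z.l b a) * DT T x (S.ψ a) =
            (DT T x (Z.l c a) * DT T' x (S.ψ a) - DT T' x (Z.l c a) * DT T x (S.ψ a)) +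
            (DT T x (Z.l b c) * DT T' x (S.ψ a) - DT T' x (Z.l b c) * DT T x (S.ψ a)) := by
          intro a
          by_cases h : x ∈ S.U a
          · rw [Z.DT_l T h hb hc, Z.DT_l T' h hb hc]
            ring
          · rw [Part.DT_ψ_of_not h, Part.DT_ψ_of_not h]
            ring
        simp only [e2]
        rw [Finset.sum_add_distrib,
          Finset.sum_sub_distrib (f := fun a => DT T x (Z.l b c) * DT T' x (S.ψ a)),
          ← Finset.mul_sum, ← Finset.mul_sum, S.sum_DT_ψ, S.sum_DT_ψ]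
        ring
      · rw [S.ψ_of_not hb]
        simp
    simp only [e1]
    rw [← Finset.sum_mul, S.sum_ψ, one_mul]
  -- third sum
  have h3 : ∑ b, ∑ a, Z.l b a x * S.wd b a x T T' =
      -∑ b, ∑ a, Z.r b c a * S.wd b a x T T' := by
    have e1 : ∀ b a, Z.l b a x * S.wd b a x T T' =
        -(Z.r b c a * S.wd b a x T T') +
        Z.l b c x * S.wd b a x T T' + Z.l c a x * S.wd b a x T T' := by
      intro b a
      by_cases h : x ∉ S.U b ∨ x ∉ S.U a
      · rw [Part.wd_eq_zero h]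
        ring
      · push Not at h
        have := Z.coc b c a x h.1 hc h.2
        linear_combination -S.wd b a x T T' * this
    have e2 : ∑ b, ∑ a, Z.l b c x * S.wd b a x T T' = 0 := by
      refine Finset.sum_eq_zero fun b _ => ?_
      rw [← Finset.mul_sum, Part.sum_wd_right, mul_zero]
    have e3 : ∑ b, ∑ a, Z.l c a x * S.wd b a x T T' = 0 := by
      rw [Finset.sum_comm]
      refine Finset.sum_eq_zero fun a _ => ?_
      rw [← Finset.mul_sum, Part.sum_wd_left, mul_zero]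
    simp only [e1, Finset.sum_add_distrib]
    rw [e2, e3]
    simp only [Finset.sum_neg_distrib]
    ring
  have h4 : ∑ b, ∑ a, (S.ψ b x * (DT T x (Z.l b a) * DT T' x (S.ψ a) -
        DT T' x (Z.l b a) * DT T x (S.ψ a)) + Z.l b a x * S.wd b a x T T') =
      ∑ b, ∑ a, S.ψ b x * (DT T x (Z.l b a) * DT T' x (S.ψ a) -
        DT T' x (Z.l b a) * DT T x (S.ψ a)) + ∑ b, ∑ a, Z.l b a x * S.wd b a x T T' := by
    simp only [Finset.sum_add_distrib]
  rw [h4, h1, h2, h3]
  have h5 : ∑ a, (DT T x (S.ψ a) * DT T' x (Z.l c a) - DT T' x (S.ψ a) * DT T x (Z.l c a)) =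
      -∑ a, (DT T x (Z.l c a) * DT T' x (S.ψ a) - DT T' x (Z.l c a) * DT T x (S.ψ a)) := by
    rw [← Finset.sum_neg_distrib]
    exact Finset.sum_congr rfl fun a _ => by ring
  rw [h5]
  ring

/-- **the zigzag lemma**: `F = -W(r) + dθ` -/
theorem eq : F = -S.W Z.r + Z.theta.d := by
  refine twoF_ext fun x q q' => ?_
  rw [pr_add, pr_neg, Part.pr_W]
  have h := Part.Wp_eq (S := S) Z.isCoc x (tq q) (tq q')
    (F := pr F x q q' - pr Z.theta.d x q q') (by
      intro c hc
      rw [Z.pr_dtheta' hc]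
      ring)
  linear_combination h

end manifold

end Zig

end Vale.Agent.P267.H995
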